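import Mathlib

/-! # Module SC: scale induction (pure ultrametric combinatorics) -/

namespace P025H440

/-- cusps of relative accuracy `ε` at all `z` with `ρ ≤ ‖z‖ ≤ R` -/
def RD {k : Type*} [NormedField k] (C : Set k) (ε ρ R : ℝ) : Prop :=
  ∀ z : k, ρ ≤ ‖z‖ → ‖z‖ ≤ R → ∃ b ∈ C, ‖b - z‖ ≤ ε * ‖z‖

namespace SC

section
variable {k : Type*} [NontriviallyNormedField k] [IsUltrametricDist k]

lemma ultra (x y z : k) : ‖x - z‖ ≤ max ‖x - y‖ ‖y - z‖ := by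
  have := IsUltrametricDist.norm_add_le_max (x - y) (y - z)
  rwa [sub_add_sub_cancel] at this

lemma ultra_le {x y z : k} {r : ℝ} (h1 : ‖x - y‖ ≤ r) (h2 : ‖y - z‖ ≤ r) : ‖x - z‖ ≤ r :=
  (ultra x y z).trans (max_le h1 h2)

lemma add_le' {x y : k} {r : ℝ} (h1 : ‖x‖ ≤ r) (h2 : ‖y‖ ≤ r) : ‖x + y‖ ≤ r :=
  (IsUltrametricDist.norm_add_le_max x y).trans (max_le h1 h2)

lemma sub_le' {x y : k} {r : ℝ} (h1 : ‖x‖ ≤ r) (h2 : ‖y‖ ≤ r) : ‖x - y‖ ≤ r := by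
  rw [sub_eq_add_neg]; exact add_le' h1 (by rwa [norm_neg])

omit [IsUltrametricDist k] in
lemma half (h2 : ‖(2 : k)‖ = 1) (x : k) : ‖x / 2‖ = ‖x‖ := by rw [norm_div, h2, div_one]

/-- if `‖x - y‖ < ‖y‖` then `‖x‖ = ‖y‖` -/
lemma norm_eq {x y : k} (h : ‖x - y‖ < ‖y‖) : ‖x‖ = ‖y‖ := by
  have := IsUltrametricDist.norm_add_eq_max_of_norm_ne_norm (x := x - y) (y := y) h.ne
  rw [sub_add_cancel, max_eq_right h.le] at this
  exact this

/-- Step (1): a state closed under midpoints up to `φ * ρ`. -/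
lemma exists_closed [ProperSpace k] (h2 : ‖(2 : k)‖ = 1)
    {St : Type*} (Cs : St → Set k) (φ ε : ℝ) (θ : k) (hφ0 : 0 < φ)
    (hφε : φ ≤ ε) (hε1 : ε < 1) (hφθ : 1 ≤ φ * ‖θ‖)
    (hzoom : ∀ (t : St), ∀ b1 ∈ Cs t, ∀ b2 ∈ Cs t, ∀ b3 ∈ Cs t, b1 ≠ b2 →
      φ * ‖b1 - b2‖ < ‖(b1 + b2) / 2‖ →
      ‖b3 - ((b1 + b2) / 2 + (b1 - b2) * θ)‖ < ‖b1 - b2‖ * ‖θ‖ →
      ∃ t' : St, (∀ b ∈ Cs t, φ * ‖b1 - b2‖ < ‖b - (b1 + b2) / 2‖ →
          ∃ b' ∈ Cs t', ‖b' - b‖ ≤ φ * ‖b1 - b2‖) ∧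
        ∃ b' ∈ Cs t', ‖b' - (b1 + b2) / 2‖ ≤ φ * ‖b1 - b2‖)
    (ρ R : ℝ) (hρ : 0 < ρ) (hR : ρ * ‖θ‖ ≤ R)
    (t0 : St) (h0 : RD (Cs t0) ε ρ R) :
    ∃ t : St, RD (Cs t) ε ρ R ∧ ∀ b1 ∈ Cs t, ∀ b2 ∈ Cs t, ‖b1‖ ≤ ρ → ‖b2‖ ≤ ρ →
      φ * ρ < ‖(b1 + b2) / 2‖ → ∃ b ∈ Cs t, ‖b - (b1 + b2) / 2‖ ≤ φ * ρ := by
  classical
  have hδ : 0 < φ * ρ := mul_pos hφ0 hρ
  obtain ⟨Z, -, hZf, hZ⟩ := (isCompact_closedBall (0 : k) ρ).finite_cover_balls hδ
  set Zf := hZf.toFinset with hZfdef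
  let U : St → Finset k := fun t => Zf.filter (fun z => ¬ ∃ b ∈ Cs t, ‖b - z‖ ≤ φ * ρ)
  have key : ∀ m : ℕ, ∀ t : St, (U t).card = m → RD (Cs t) ε ρ R →
      ∃ t : St, RD (Cs t) ε ρ R ∧ ∀ b1 ∈ Cs t, ∀ b2 ∈ Cs t, ‖b1‖ ≤ ρ → ‖b2‖ ≤ ρ →
      φ * ρ < ‖(b1 + b2) / 2‖ → ∃ b ∈ Cs t, ‖b - (b1 + b2) / 2‖ ≤ φ * ρ := by
    intro m
    induction m using Nat.strong_induction_on with
    | _ m ih =>
      intro t hm hRD
      by_cases hc : ∀ b1 ∈ Cs t, ∀ b2 ∈ Cs t, ‖b1‖ ≤ ρ → ‖b2‖ ≤ ρ →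
          φ * ρ < ‖(b1 + b2) / 2‖ → ∃ b ∈ Cs t, ‖b - (b1 + b2) / 2‖ ≤ φ * ρ
      · exact ⟨t, hRD, hc⟩
      push Not at hc
      obtain ⟨b1, hb1, b2, hb2, hn1, hn2, ha, hno⟩ := hc
      set a := (b1 + b2) / 2 with hadef
      have hr : ‖b1 - b2‖ ≤ ρ := sub_le' hn1 hn2
      have hb1a : ‖b1 - a‖ = ‖b1 - b2‖ := by
        have : b1 - a = (b1 - b2) / 2 := by
          have h20 : (2 : k) ≠ 0 := by rw [← norm_ne_zero_iff, h2]; norm_num
          rw [hadef]; field_simp; ring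
        rw [this, half h2]
      have hgt : φ * ρ < ‖b1 - b2‖ := by rw [← hb1a]; exact hno b1 hb1
      have hne : b1 ≠ b2 := by
        rintro rfl; rw [sub_self, norm_zero] at hgt; exact absurd hgt (not_lt.2 hδ.le)
      have hθ : 0 < ‖θ‖ := by
        rcases (norm_nonneg θ).lt_or_eq with h | h
        · exact h
        · rw [← h, mul_zero] at hφθ; norm_num at hφθ
      have hrpos : 0 < ‖b1 - b2‖ := hδ.trans hgt
      have hna : ‖a‖ ≤ ρ := by rw [hadef, half h2]; exact add_le' hn1 hn2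
      have hdθ : ρ < ‖(b1 - b2) * θ‖ := by
        rw [norm_mul]
        have h1 : φ * ρ * ‖θ‖ < ‖b1 - b2‖ * ‖θ‖ := mul_lt_mul_of_pos_right hgt hθ
        have h3 : ρ ≤ φ * ρ * ‖θ‖ := by nlinarith
        linarith
      have hz3 : ‖a + (b1 - b2) * θ‖ = ‖b1 - b2‖ * ‖θ‖ := by
        rw [← norm_mul]
        apply norm_eq
        rw [add_sub_cancel_right]
        exact lt_of_le_of_lt hna hdθ
      obtain ⟨b3, hb3, hb3n⟩ := hRD (a + (b1 - b2) * θ)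
        (by rw [hz3, ← norm_mul]; exact hdθ.le)
        (by rw [hz3]; exact (mul_le_mul_of_nonneg_right hr hθ.le).trans hR)
      have hb3' : ‖b3 - (a + (b1 - b2) * θ)‖ < ‖b1 - b2‖ * ‖θ‖ := by
        rw [hz3] at hb3n
        have : 0 < ‖b1 - b2‖ * ‖θ‖ := mul_pos hrpos hθ
        nlinarith
      have hφr : φ * ‖b1 - b2‖ ≤ φ * ρ := mul_le_mul_of_nonneg_left hr hφ0.le
      obtain ⟨t', hmove, b', hb', hb'n⟩ := hzoom t b1 hb1 b2 hb2 b3 hb3 hne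
        (lt_of_le_of_lt hφr ha) hb3'
      have hmv : ∀ b ∈ Cs t, ∃ b' ∈ Cs t', ‖b' - b‖ ≤ φ * ρ := by
        intro b hb
        obtain ⟨c, hc, hcn⟩ := hmove b hb (lt_of_le_of_lt hφr (hno b hb))
        exact ⟨c, hc, hcn.trans hφr⟩
      have hRD' : RD (Cs t') ε ρ R := by
        intro z hz1 hz2
        obtain ⟨b, hb, hbn⟩ := hRD z hz1 hz2
        obtain ⟨c, hc, hcn⟩ := hmv b hb
        refine ⟨c, hc, ultra_le (hcn.trans ?_) hbn⟩
        have : φ * ρ ≤ ε * ρ := mul_le_mul_of_nonneg_right hφε hρ.le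
        have hε0 : 0 ≤ ε := hφ0.le.trans hφε
        exact this.trans (mul_le_mul_of_nonneg_left hz1 hε0)
      -- the unoccupied set decreases strictly
      obtain ⟨z, hzZ, hza⟩ : ∃ z ∈ Z, ‖a - z‖ ≤ φ * ρ := by
        have hmem : a ∈ Metric.closedBall (0 : k) ρ := by simpa using hna
        have := hZ hmem
        simp only [Set.mem_iUnion, Metric.mem_ball, dist_eq_norm] at this
        obtain ⟨z, hz, hzn⟩ := this
        exact ⟨z, hz, hzn.le⟩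
      have hlt : (U t').card < (U t).card := by
        apply Finset.card_lt_card
        rw [Finset.ssubset_iff_of_subset]
        · refine ⟨z, ?_, ?_⟩
          · simp only [U, Finset.mem_filter, hZfdef, Set.Finite.mem_toFinset]
            refine ⟨hzZ, ?_⟩
            rintro ⟨b, hb, hbn⟩
            have : ‖b - a‖ ≤ φ * ρ := ultra_le hbn (by rwa [norm_sub_rev])
            exact absurd this (not_le.2 (hno b hb))
          · simp only [U, Finset.mem_filter, not_and, not_not]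
            intro _
            exact ⟨b', hb', ultra_le (hb'n.trans hφr) hza⟩
        · intro w hw
          simp only [U, Finset.mem_filter] at hw ⊢
          refine ⟨hw.1, ?_⟩
          rintro ⟨b, hb, hbn⟩
          apply hw.2
          obtain ⟨c, hc, hcn⟩ := hmv b hb
          exact ⟨c, hc, ultra_le hcn hbn⟩
      exact ih _ (hm ▸ hlt) t' rfl hRD'
  exact key _ t0 rfl h0

/-- Step (2), the group lemma: a midpoint-closed, `δ`-invariant subset `S` of a sphere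
which is dense at relative scale `‖p‖` in every coset `x + U` contains everything. -/
lemma coset_all (p : ℕ) (hp : p.Prime) (hp1 : ‖(p : k)‖ < 1) (h2 : ‖(2 : k)‖ = 1)
    (S : Set k) (δ r : ℝ) (hδ : 0 < δ) (hδr : δ ≤ r) (x : k)
    (hinv : ∀ s ∈ S, ∀ u : k, ‖u‖ ≤ δ → s + u ∈ S)
    (hmid : ∀ s ∈ S, ∀ s' ∈ S, ‖s - x‖ ≤ r → ‖s' - x‖ ≤ r → (s + s') / 2 ∈ S)
    (hdense : ∀ y : k, ‖y - x‖ ≤ r → ∃ b ∈ S, ‖b - y‖ ≤ ‖(p : k)‖ * r) :
    ∀ y : k, ‖y - x‖ ≤ r → y ∈ S := by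
  have hr : 0 < r := hδ.trans_le hδr
  have h20 : (2 : k) ≠ 0 := by rw [← norm_ne_zero_iff, h2]; norm_num
  by_cases hp0 : (p : k) = 0
  · intro y hy
    obtain ⟨b, hb, hbn⟩ := hdense y hy
    rw [hp0, norm_zero, zero_mul] at hbn
    have : b - y = 0 := norm_le_zero_iff.1 hbn
    rw [sub_eq_zero] at this
    rwa [← this]
  -- a power of `p` below `δ / r`
  obtain ⟨j, hj⟩ := exists_pow_lt_of_lt_one (div_pos hδ hr) hp1
  have hj' : ‖(p : k)‖ ^ j * r ≤ δ := by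
    rw [lt_div_iff₀ hr] at hj; exact hj.le
  have hp2 : p ≠ 2 := by
    rintro rfl; rw [show ((2 : ℕ) : k) = 2 by norm_num, h2] at hp1; exact lt_irrefl _ hp1
  have hcop : Nat.Coprime 2 (p ^ j) :=
    Nat.Coprime.pow_right _ ((Nat.coprime_primes Nat.prime_two hp).2 (Ne.symm hp2))
  obtain ⟨i, hi⟩ : ∃ i, Nat.totient (p ^ j) = i + 1 :=
    ⟨Nat.totient (p ^ j) - 1, by
      have := Nat.totient_pos.2 (pow_pos hp.pos j)
      omega⟩
  have hmod : 2 ^ (i + 1) ≡ 1 [MOD p ^ j] := by rw [← hi]; exact Nat.ModEq.pow_totient hcop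
  obtain ⟨m, hm⟩ : p ^ j ∣ 2 ^ (i + 1) - 1 :=
    (Nat.modEq_iff_dvd' (Nat.one_le_two_pow)).1 hmod.symm
  have hmk : (2 : k) ^ (i + 1) - 1 = (p : k) ^ j * (m : k) := by
    have h1 : (2 : ℕ) ^ (i + 1) = p ^ j * m + 1 := by
      have := Nat.one_le_two_pow (n := i + 1)
      omega
    have h3 := congrArg (Nat.cast : ℕ → k) h1
    push_cast at h3
    rw [h3]; ring
  have hmn : ‖(2 : k) ^ (i + 1) - 1‖ * r ≤ δ := by
    rw [hmk, norm_mul, norm_pow]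
    have hm1 : ‖(m : k)‖ ≤ 1 := IsUltrametricDist.norm_natCast_le_one k m
    have : ‖(p : k)‖ ^ j * ‖(m : k)‖ ≤ ‖(p : k)‖ ^ j * 1 :=
      mul_le_mul_of_nonneg_left hm1 (by positivity)
    nlinarith
  -- base point
  obtain ⟨a, haS, han⟩ := hdense x (by rw [sub_self, norm_zero]; exact hr.le)
  have hpr : ‖(p : k)‖ * r ≤ r := by nlinarith
  have hax : ‖a - x‖ ≤ r := han.trans hpr
  let D : Set k := {u | ‖u‖ ≤ r ∧ a + u ∈ S}
  have hD0 : (0 : k) ∈ D := ⟨by rw [norm_zero]; exact hr.le, by rwa [add_zero]⟩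
  have hDinv : ∀ u ∈ D, ∀ v : k, ‖v‖ ≤ δ → u + v ∈ D := by
    rintro u ⟨hu, huS⟩ v hv
    refine ⟨add_le' hu (hv.trans hδr), ?_⟩
    rw [← add_assoc]; exact hinv _ huS v hv
  have hDx : ∀ u ∈ D, ‖a + u - x‖ ≤ r := by
    rintro u ⟨hu, -⟩
    rw [add_sub_right_comm]; exact add_le' hax hu
  have hDmid : ∀ u ∈ D, ∀ v ∈ D, (u + v) / 2 ∈ D := by
    intro u hu v hv
    refine ⟨by rw [half h2]; exact add_le' hu.1 hv.1, ?_⟩
    have h3 := hmid _ hu.2 _ hv.2 (hDx u hu) (hDx v hv)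
    have : a + (u + v) / 2 = (a + u + (a + v)) / 2 := by field_simp; ring
    rwa [this]
  have hDhalf : ∀ n : ℕ, ∀ u ∈ D, u / 2 ^ n ∈ D := by
    intro n
    induction n with
    | zero => intro u hu; simpa using hu
    | succ n ih =>
      intro u hu
      have h3 := hDmid _ (ih u hu) _ hD0
      have : u / 2 ^ (n + 1) = (u / 2 ^ n + 0) / 2 := by field_simp; ring
      rwa [this]
  have hDdouble : ∀ u ∈ D, 2 * u ∈ D := by
    intro u hu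
    have h3 := hDinv _ (hDhalf i u hu) (((2 : k) ^ (i + 1) - 1) * u / 2 ^ i) (by
      rw [norm_div, norm_mul, norm_pow, h2, one_pow, div_one]
      exact (mul_le_mul_of_nonneg_left hu.1 (norm_nonneg _)).trans hmn)
    have : 2 * u = u / 2 ^ i + ((2 : k) ^ (i + 1) - 1) * u / 2 ^ i := by
      field_simp; ring
    rwa [this]
  have hDadd : ∀ u ∈ D, ∀ v ∈ D, u + v ∈ D := by
    intro u hu v hv
    have h3 := hDdouble _ (hDmid u hu v hv)
    rwa [mul_div_cancel₀ _ h20] at h3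
  have hDnsmul : ∀ n : ℕ, ∀ u ∈ D, (n : k) * u ∈ D := by
    intro n u hu
    induction n with
    | zero => simpa using hD0
    | succ n ih =>
      have := hDadd _ ih _ hu
      have h3 : ((n + 1 : ℕ) : k) * u = (n : k) * u + u := by push_cast; ring
      rwa [h3]
  have hDdense : ∀ n : ℕ, ∀ y : k, ‖y‖ ≤ r → ∃ u ∈ D, ‖y - u‖ ≤ ‖(p : k)‖ ^ n * r := by
    intro n
    induction n with
    | zero => intro y hy; exact ⟨0, hD0, by simpa using hy⟩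
    | succ n ih =>
      intro y hy
      obtain ⟨b, hb, hbn⟩ := hdense (a + y) (by
        rw [add_sub_right_comm]; exact add_le' hax hy)
      have hu0 : ‖b - a - y‖ ≤ ‖(p : k)‖ * r := by rwa [sub_sub]
      have hu0D : b - a ∈ D := by
        refine ⟨?_, by rwa [add_sub_cancel]⟩
        have h3 := add_le' (hu0.trans hpr) hy
        rwa [sub_add_cancel] at h3
      have hpn : 0 < ‖(p : k)‖ := norm_pos_iff.2 hp0
      obtain ⟨u1, hu1, hu1n⟩ := ih ((y - (b - a)) / p) (by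
        rw [norm_div, div_le_iff₀ hpn, norm_sub_rev, mul_comm]; exact hu0)
      refine ⟨(b - a) + (p : k) * u1, hDadd _ hu0D _ (hDnsmul p _ hu1), ?_⟩
      have : y - ((b - a) + (p : k) * u1) = (p : k) * ((y - (b - a)) / p - u1) := by
        field_simp; ring
      rw [this, norm_mul, pow_succ', mul_assoc]
      exact mul_le_mul_of_nonneg_left hu1n hpn.le
  have hDall : ∀ y : k, ‖y‖ ≤ r → y ∈ D := by
    intro y hy
    obtain ⟨u, hu, hun⟩ := hDdense j y hy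
    have h3 := hDinv u hu (y - u) (hun.trans hj')
    rwa [add_sub_cancel] at h3
  intro y hy
  have h3 := hDall (y - a) (by
    have := sub_le' hy hax
    rwa [sub_sub_sub_cancel_right] at this)
  have h4 := h3.2
  rwa [add_sub_cancel] at h4

end

end SC

/-- The scale induction. `φ` is the relative radius of the zoom, `θ` the position of the
auxiliary far cusp, `St` the type of states, `Cs t` the set of cusps of a state. -/
theorem scale_all {k : Type*} [NontriviallyNormedField k] [IsUltrametricDist k] [ProperSpace k]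
    (p : ℕ) (hp : p.Prime) (hp1 : ‖(p : k)‖ < 1) (h2 : ‖(2 : k)‖ = 1) (π : k) (hπ0 : π ≠ 0)
    (hπ1 : ‖π‖ < 1)
    {St : Type*} (Cs : St → Set k) (φ ε : ℝ) (θ : k) (hφ0 : 0 < φ) (hε0 : 0 < ε)
    (hφε : φ ≤ ε * ‖π‖) (hεp : ε ≤ ‖(p : k)‖ * ‖π‖) (hφθ : 1 ≤ φ * ‖θ‖)
    (hzoom : ∀ (t : St), ∀ b1 ∈ Cs t, ∀ b2 ∈ Cs t, ∀ b3 ∈ Cs t, b1 ≠ b2 →
      φ * ‖b1 - b2‖ < ‖(b1 + b2) / 2‖ →
      ‖b3 - ((b1 + b2) / 2 + (b1 - b2) * θ)‖ < ‖b1 - b2‖ * ‖θ‖ →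
      ∃ t' : St, (∀ b ∈ Cs t, φ * ‖b1 - b2‖ < ‖b - (b1 + b2) / 2‖ →
          ∃ b' ∈ Cs t', ‖b' - b‖ ≤ φ * ‖b1 - b2‖) ∧
        ∃ b' ∈ Cs t', ‖b' - (b1 + b2) / 2‖ ≤ φ * ‖b1 - b2‖)
    (t0 : St) (ρ0 R : ℝ) (hρ0 : 0 < ρ0) (hρπ : ∃ c : k, ‖c‖ = ρ0) (hR : ρ0 * ‖θ‖ ≤ R)
    (h0 : RD (Cs t0) ε ρ0 R) (i : ℕ) :
    ∃ t : St, RD (Cs t) ε (ρ0 * ‖π‖ ^ i) R := by
  have hπn : 0 < ‖π‖ := norm_pos_iff.2 hπ0
  have hpn : 0 ≤ ‖(p : k)‖ := norm_nonneg _
  have hε1 : ε < 1 := by nlinarith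
  have hφε' : φ ≤ ε := by nlinarith
  have hφ1 : φ < ‖π‖ := by nlinarith
  have h20 : (2 : k) ≠ 0 := by rw [← norm_ne_zero_iff, h2]; norm_num
  obtain ⟨c, hc⟩ := hρπ
  induction i with
  | zero => exact ⟨t0, by simpa using h0⟩
  | succ i ih =>
    obtain ⟨t1, ht1⟩ := ih
    set ρ := ρ0 * ‖π‖ ^ i with hρdef
    have hρ : 0 < ρ := mul_pos hρ0 (pow_pos hπn i)
    have hρle : ρ ≤ ρ0 := by
      rw [hρdef]
      exact mul_le_of_le_one_right hρ0.le (pow_le_one₀ hπn.le hπ1.le)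
    have hρR : ρ * ‖θ‖ ≤ R := (mul_le_mul_of_nonneg_right hρle (norm_nonneg _)).trans hR
    have hh : ‖c * π ^ i‖ = ρ := by rw [norm_mul, norm_pow, hc]
    have hρR' : ρ ≤ R := by
      have h3 : 1 ≤ ‖θ‖ := by nlinarith [norm_nonneg θ]
      nlinarith
    have hδ : 0 < φ * ρ := mul_pos hφ0 hρ
    obtain ⟨t, hRD, hcl⟩ := SC.exists_closed h2 Cs φ ε θ hφ0 hφε' hε1 hφθ hzoom ρ R hρ hρR t1 ht1
    refine ⟨t, ?_⟩
    -- the set of points within `δ` of a cusp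
    let S : Set k := {z | ∃ b ∈ Cs t, ‖b - z‖ ≤ φ * ρ}
    have hmid : ∀ s ∈ S, ∀ s' ∈ S, ‖s‖ ≤ ρ → ‖s'‖ ≤ ρ → φ * ρ < ‖(s + s') / 2‖ →
        (s + s') / 2 ∈ S := by
      rintro s ⟨b, hb, hbn⟩ s' ⟨b', hb', hbn'⟩ hs hs' hlt
      have hφρ : φ * ρ ≤ ρ := by nlinarith
      have hbρ : ‖b‖ ≤ ρ := by
        have := SC.add_le' (hbn.trans hφρ) hs
        rwa [sub_add_cancel] at this
      have hbρ' : ‖b'‖ ≤ ρ := by
        have := SC.add_le' (hbn'.trans hφρ) hs'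
        rwa [sub_add_cancel] at this
      have hdiff : ‖(b + b') / 2 - (s + s') / 2‖ ≤ φ * ρ := by
        have h3 : (b + b') / 2 - (s + s') / 2 = ((b - s) + (b' - s')) / 2 := by
          field_simp; ring
        rw [h3, SC.half h2]; exact SC.add_le' hbn hbn'
      have hnorm : ‖(b + b') / 2‖ = ‖(s + s') / 2‖ := SC.norm_eq (lt_of_le_of_lt hdiff hlt)
      obtain ⟨b'', hb'', hbn''⟩ := hcl b hb b' hb' hbρ hbρ' (by rwa [hnorm])
      exact ⟨b'', hb'', SC.ultra_le hbn'' hdiff⟩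
    have hsphere : ∀ x : k, ‖x‖ = ρ → x ∈ S := by
      intro x hx
      have hxy : ∀ y : k, ‖y - x‖ ≤ ‖π‖ * ρ → ‖y‖ = ρ := by
        intro y hy
        rw [← hx]
        apply SC.norm_eq
        rw [hx]; nlinarith
      refine SC.coset_all p hp hp1 h2 S (φ * ρ) (‖π‖ * ρ) hδ (by nlinarith) x ?_ ?_ ?_ x
        (by rw [sub_self, norm_zero]; positivity)
      · rintro s ⟨b, hb, hbn⟩ u hu
        refine ⟨b, hb, ?_⟩
        rw [← sub_sub]; exact SC.sub_le' hbn hu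
      · intro s hs s' hs' hsx hsx'
        apply hmid s hs s' hs' (hxy s hsx).le (hxy s' hsx').le
        have h3 : ‖(s + s') / 2 - x‖ ≤ ‖π‖ * ρ := by
          have : (s + s') / 2 - x = ((s - x) + (s' - x)) / 2 := by field_simp; ring
          rw [this, SC.half h2]; exact SC.add_le' hsx hsx'
        rw [hxy _ h3]
        nlinarith
      · intro y hy
        obtain ⟨b, hb, hbn⟩ := hRD y (hxy y hy).ge ((hxy y hy).le.trans hρR')
        refine ⟨b, ⟨b, hb, by rw [sub_self, norm_zero]; exact hδ.le⟩, hbn.trans ?_⟩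
        rw [hxy y hy]
        have : ε * ρ ≤ ‖(p : k)‖ * ‖π‖ * ρ := mul_le_mul_of_nonneg_right hεp hρ.le
        linarith
    intro z hz1 hz2
    by_cases hzρ : ρ ≤ ‖z‖
    · exact hRD z hzρ hz2
    push Not at hzρ
    have hz1' : ‖π‖ * ρ ≤ ‖z‖ := by
      have : ρ0 * ‖π‖ ^ (i + 1) = ‖π‖ * ρ := by rw [hρdef]; ring
      rwa [this] at hz1
    have hzδ : φ * ρ < ‖z‖ := by nlinarith
    set h := c * π ^ i with hhdef
    have hp' : ‖z + h‖ = ρ := by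
      rw [← hh]; apply SC.norm_eq; rw [add_sub_cancel_right, hh]; exact hzρ
    have hm' : ‖z - h‖ = ρ := by
      have h3 : ‖z - h‖ = ‖-h‖ := by
        apply SC.norm_eq; rw [sub_neg_eq_add, sub_add_cancel, norm_neg, hh]; exact hzρ
      rw [h3, norm_neg, hh]
    have h4 : (z + h + (z - h)) / 2 = z := by field_simp; ring
    have h5 := hmid _ (hsphere _ hp') _ (hsphere _ hm') hp'.le hm'.le (by rwa [h4])
    rw [h4] at h5
    obtain ⟨b, hb, hbn⟩ := h5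
    refine ⟨b, hb, hbn.trans ?_⟩
    have : φ * ρ ≤ ε * ‖π‖ * ρ := mul_le_mul_of_nonneg_right hφε hρ.le
    nlinarith

end P025H440
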