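import Vale.Agent.P025.R2.H440.Defs
import Vale.Agent.P025.R2.H440.ZoomSmall
import Vale.Agent.P025.R2.H907.Scale

/-! # Assembly A3: all scales, from the zoom lemma and the scale induction -/

open IntermediateField Polynomial

namespace P025H907

open P025H641 P025H440

universe u v w

/-- A normed version of the final scale statement. -/
theorem scale_norm {k' : Type w} [NontriviallyNormedField k'] [IsUltrametricDist k']
    [ProperSpace k'] [CharZero k'] {p : ℕ} (hp : p.Prime) (hp2 : p ≠ 2)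
    (hpk : ‖(p : k')‖ = (p : ℝ)⁻¹) (hunit : ∀ m : ℕ, ¬ p ∣ m → ‖(m : k')‖ = 1)
    {n : ℕ} (hn : 3 ≤ n) (hpn : ¬ p ∣ 2 * n - 1) (a b : ℕ) (ha : 2 ≤ a)
    (hna : p ^ (a + 2) ∣ n.centralBinom) (hb : 2 * n ^ 2 ≤ b) {St : Type*} (Cs : St → Set k')
    (hzoom : ∀ t : St, ∀ b₁ ∈ Cs t, ∀ b₂ ∈ Cs t, ∀ b₃ ∈ Cs t, ∀ κ : k', b₁ ≠ b₂ →
      κ = (b₁ - b₂) / (2 * (zβ n : ℚ)) → (p : ℝ) * ‖κ‖ ≤ ‖(b₁ + b₂) / 2‖ →
      ‖b₃ - ((b₁ + b₂) / 2 + κ * zPsi n ((p : k') ^ n))‖ < ‖κ * zPsi n ((p : k') ^ n)‖ →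
      ∃ t' : St, (∀ c ∈ Cs t, (p : ℝ) * ‖κ‖ ≤ ‖c - (b₁ + b₂) / 2‖ →
          ∃ c' ∈ Cs t', ‖c' - c‖ ≤ ‖κ‖) ∧
        ∃ c' ∈ Cs t', ‖c' - (b₁ + b₂) / 2‖ ≤ ‖κ‖)
    (t : St) (hRD : RD (Cs t) ((p : ℝ) ^ a)⁻¹ 1 ((p : ℝ) ^ b)) (ρ : ℝ) (hρ : 0 < ρ) :
    ∃ t' : St, RD (Cs t') ((p : ℝ) ^ a)⁻¹ ρ ((p : ℝ) ^ b) := by
  have hp3 : 3 ≤ p := by
    have h2 := hp.two_le
    omega
  have hpR : (1 : ℝ) < p := by exact_mod_cast hp.one_lt
  have hpR0 : (0 : ℝ) < p := by linarith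
  have hpk0 : (p : k') ≠ 0 := by
    rw [← norm_pos_iff, hpk, inv_pos]
    exact hpR0
  have hpk1 : ‖(p : k')‖ < 1 := by
    rw [hpk]
    exact inv_lt_one_of_one_lt₀ hpR
  have h2 : ‖(2 : k')‖ = 1 := by
    have := hunit 2 (by
      intro h
      exact hp2 ((Nat.prime_dvd_prime_iff_eq hp Nat.prime_two).1 h))
    simpa using this
  -- the valuation is `p`-adic
  have hv : IsPad (NormedField.valuation (K := k')) p := by
    refine ⟨hp, ?_, ?_, ?_⟩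
    · rw [NormedField.valuation_apply, ← NNReal.coe_lt_coe]
      simpa using hpk1
    · rw [NormedField.valuation_apply]
      simpa using hpk0
    · intro m hm
      rw [NormedField.valuation_apply]
      ext
      simpa using hunit m hm
  -- the norm of the central binomial coefficient
  set cb : ℕ := n.centralBinom with hcb
  have hcb0 : cb ≠ 0 := n.centralBinom_ne_zero
  have hcbk : (cb : k') ≠ 0 := by exact_mod_cast hcb0
  have hnat_le : ∀ m : ℕ, ‖(m : k')‖ ≤ 1 := fun m => by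
    have := hv.nat_le m
    rw [NormedField.valuation_apply, ← NNReal.coe_le_coe] at this
    simpa using this
  have hcb_le : ‖(cb : k')‖ ≤ ((p : ℝ) ^ (a + 2))⁻¹ := by
    obtain ⟨c, hc⟩ := hna
    rw [hc, Nat.cast_mul, norm_mul, Nat.cast_pow, norm_pow, hpk, inv_pow]
    exact mul_le_of_le_one_right (by positivity) (hnat_le c)
  have hcb_ge : ((p : ℝ) ^ (2 * n))⁻¹ ≤ ‖(cb : k')‖ := by
    obtain ⟨e, c, hc, h1⟩ := Nat.exists_eq_pow_mul_and_not_dvd hcb0 p hp.ne_one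
    have hc0 : 0 < c := by
      rcases Nat.eq_zero_or_pos c with rfl | h
      · exact absurd (dvd_zero p) hc
      · exact h
    have h3 : p ^ e ≤ cb := by
      rw [h1]
      exact Nat.le_mul_of_pos_right _ hc0
    have h4 : cb ≤ 4 ^ n := n.centralBinom_le_four_pow
    have h5 : (4 : ℕ) ^ n ≤ p ^ (2 * n) := by
      rw [pow_mul]
      refine Nat.pow_le_pow_left ?_ n
      nlinarith
    have h6 : e ≤ 2 * n := by
      by_contra h
      push Not at h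
      have h7 : p ^ (2 * n) < p ^ e := Nat.pow_lt_pow_right hp.one_lt h
      omega
    rw [h1, Nat.cast_mul, norm_mul, Nat.cast_pow, norm_pow, hpk, hunit c hc, mul_one, inv_pow]
    rw [inv_le_inv₀ (by positivity) (by positivity)]
    exact pow_le_pow_right₀ hpR.le h6
  -- the norm of `β`
  have hβ : ((zβ n : ℚ) : k') = 4 ^ n / (cb : k') := by
    rw [zβ]
    push_cast
    rfl
  have hβn : ‖(2 * ((zβ n : ℚ) : k'))‖ = ‖(cb : k')‖⁻¹ := by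
    rw [hβ, norm_mul, norm_div, norm_pow, h2, one_mul]
    have h4 : ‖(4 : k')‖ = 1 := by
      rw [show (4 : k') = 2 * 2 by norm_num, norm_mul, h2, one_mul]
    rw [h4, one_pow, one_div]
  have hβ0 : (2 * ((zβ n : ℚ) : k')) ≠ 0 := by
    rw [← norm_ne_zero_iff, hβn]
    exact inv_ne_zero (norm_ne_zero_iff.2 hcbk)
  -- the norm of `Ψ (p ^ n)`
  set Ψ : k' := zPsi n ((p : k') ^ n) with hΨ
  have hΨn : ‖Ψ‖ = (p : ℝ) ^ (n * (2 * n - 1)) := by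
    have h3 := (hv.val_Ψ_small (by omega) hpn (y := (p : k') ^ n) (by
      rw [map_pow])).resolve_right (pow_ne_zero _ hpk0)
    rw [← hΨ, NormedField.valuation_apply, NormedField.valuation_apply] at h3
    have h4 : ‖Ψ‖ * ‖(p : k') ^ n‖ ^ (2 * n - 1) = 1 := by
      have := congrArg NNReal.toReal h3
      simpa using this
    rw [norm_pow, hpk, ← pow_mul, inv_pow] at h4
    rw [eq_comm]
    have h5 : ((p : ℝ) ^ (n * (2 * n - 1))) ≠ 0 := by positivity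
    field_simp at h4
    exact h4.symm
  -- the parameters
  set φ : ℝ := p * ‖(cb : k')‖ with hφ
  set θ : k' := Ψ / (2 * ((zβ n : ℚ) : k')) with hθ
  have hcbpos : 0 < ‖(cb : k')‖ := norm_pos_iff.2 hcbk
  have hθn : ‖θ‖ = (p : ℝ) ^ (n * (2 * n - 1)) * ‖(cb : k')‖ := by
    rw [hθ, norm_div, hβn, hΨn, div_inv_eq_mul]
  have hκn : ∀ x : k', p * ‖x / (2 * ((zβ n : ℚ) : k'))‖ = φ * ‖x‖ := by
    intro x
    rw [norm_div, hβn, div_inv_eq_mul, hφ]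
    ring
  have hφ0 : 0 < φ := mul_pos hpR0 hcbpos
  have hφε : φ ≤ ((p : ℝ) ^ a)⁻¹ * ‖(p : k')‖ := by
    rw [hφ, hpk]
    calc (p : ℝ) * ‖(cb : k')‖ ≤ p * ((p : ℝ) ^ (a + 2))⁻¹ := by gcongr
      _ = ((p : ℝ) ^ a)⁻¹ * (p : ℝ)⁻¹ := by
          rw [pow_add]
          field_simp
  have hεp : ((p : ℝ) ^ a)⁻¹ ≤ ‖(p : k')‖ * ‖(p : k')‖ := by
    rw [hpk, ← mul_inv, ← pow_two, inv_le_inv₀ (by positivity) (by positivity)]
    exact pow_le_pow_right₀ hpR.le ha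
  obtain ⟨d, rfl⟩ : ∃ d, n = d + 3 := ⟨n - 3, by omega⟩
  have hφθ : 1 ≤ φ * ‖θ‖ := by
    rw [hφ, hθn]
    have h3 : ((p : ℝ) ^ (2 * (d + 3)))⁻¹ * ((p : ℝ) ^ (2 * (d + 3)))⁻¹ ≤
        ‖(cb : k')‖ * ‖(cb : k')‖ := by gcongr
    have h4 : 4 * (d + 3) ≤ (d + 3) * (2 * (d + 3) - 1) + 1 := by
      have : 2 * (d + 3) - 1 = 2 * d + 5 := by omega
      rw [this]
      nlinarith
    calc (1 : ℝ) = (p : ℝ) ^ (4 * (d + 3)) *
          (((p : ℝ) ^ (2 * (d + 3)))⁻¹ * ((p : ℝ) ^ (2 * (d + 3)))⁻¹) := by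
          rw [← mul_inv, ← pow_add, show 2 * (d + 3) + 2 * (d + 3) = 4 * (d + 3) by ring,
            mul_inv_cancel₀ (by positivity)]
      _ ≤ (p : ℝ) ^ ((d + 3) * (2 * (d + 3) - 1) + 1) * (‖(cb : k')‖ * ‖(cb : k')‖) := by
          gcongr
          exact hpR.le
      _ = _ := by rw [pow_succ]; ring
  have hθR : 1 * ‖θ‖ ≤ (p : ℝ) ^ b := by
    rw [one_mul, hθn]
    calc (p : ℝ) ^ ((d + 3) * (2 * (d + 3) - 1)) * ‖(cb : k')‖ ≤
          (p : ℝ) ^ ((d + 3) * (2 * (d + 3) - 1)) * 1 := by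
          gcongr
          exact hnat_le _
      _ = (p : ℝ) ^ ((d + 3) * (2 * (d + 3) - 1)) := mul_one _
      _ ≤ (p : ℝ) ^ b := by
          refine pow_le_pow_right₀ hpR.le (le_trans ?_ hb)
          have : 2 * (d + 3) - 1 ≤ 2 * (d + 3) := Nat.sub_le _ _
          calc (d + 3) * (2 * (d + 3) - 1) ≤ (d + 3) * (2 * (d + 3)) := Nat.mul_le_mul_left _ this
            _ = 2 * (d + 3) ^ 2 := by ring
  -- the scale
  obtain ⟨i, hi⟩ := exists_pow_lt_of_lt_one hρ hpk1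
  obtain ⟨t', ht'⟩ := scale_all p hp hpk1 h2 (p : k') hpk0 hpk1 Cs φ ((p : ℝ) ^ a)⁻¹ θ hφ0
    (by positivity) hφε hεp hφθ (by
      intro t b₁ h₁ b₂ h₂ b₃ h₃ hne hlt hb₃
      obtain ⟨t', h4, c', hc', h5⟩ := hzoom t b₁ h₁ b₂ h₂ b₃ h₃ _ hne rfl
        (by rw [hκn]; exact hlt.le) (by
          have h6 : (b₁ - b₂) / (2 * ((zβ (d + 3) : ℚ) : k')) * Ψ = (b₁ - b₂) * θ := by
            rw [hθ]; ring
          rw [h6, norm_mul]
          exact hb₃)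
      have hle : ‖(b₁ - b₂) / (2 * ((zβ (d + 3) : ℚ) : k'))‖ ≤ φ * ‖b₁ - b₂‖ := by
        rw [← hκn]
        exact le_mul_of_one_le_left (norm_nonneg _) hpR.le
      refine ⟨t', ?_, c', hc', h5.trans hle⟩
      intro c hc hlt'
      obtain ⟨c'', hc'', h7⟩ := h4 c hc (by rw [hκn]; exact hlt'.le)
      exact ⟨c'', hc'', h7.trans hle⟩) t 1 ((p : ℝ) ^ b) one_pos ⟨1, norm_one⟩ hθR hRD i
  refine ⟨t', fun z hz1 hz2 => ht' z ?_ hz2⟩
  rw [one_mul]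
  exact hi.le.trans hz1

section ctx

variable {p : ℕ} [Fact p.Prime] {k : Type u} {K : Type v} [Field k] [Field K] [Algebra k K]
  [CharZero k] {s : Gal(constClosure k K/k) →* Gal(maxUnr k K/K)}
  {G : Subgroup Gal(constClosure k K/k)} {k' : Type w} [Field k'] [CharZero k']
  [Algebra k' (maxUnr k K)] [Algebra ℚ_[p] k'] [FiniteDimensional ℚ_[p] k']
  {O : ValuationSubring (maxUnr k K)}

/-- A3: all scales, with the zoom lemma as a hypothesis -/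
theorem exists_scale_of_zoom (hp2 : p ≠ 2) {n m : ℕ} (hn : 3 ≤ n)
    (hpn : ¬ p ∣ 2 * n - 1) (a b : ℕ)
    (ha : 2 ≤ a) (hna : p ^ (a + 2) ∣ n.centralBinom) (hb : 2 * n ^ 2 ≤ b)
    (hzoom : ∀ t : maxUnr k K, IsState s G k' O t → ∀ b₁ b₂ b₃ κ : k', b₁ ∈ Cusp k' m t →
      b₂ ∈ Cusp k' m t → b₃ ∈ Cusp k' m t → b₁ ≠ b₂ → κ = (b₁ - b₂) / (2 * (zβ n : ℚ)) →
      (p : ℝ) * spectralNorm ℚ_[p] k' κ ≤ spectralNorm ℚ_[p] k' ((b₁ + b₂) / 2) →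
      spectralNorm ℚ_[p] k' (b₃ - ((b₁ + b₂) / 2 + κ * zPsi n ((p : k') ^ n))) <
        spectralNorm ℚ_[p] k' (κ * zPsi n ((p : k') ^ n)) →
      ∃ t' : maxUnr k K, IsState s G k' O t' ∧ O.valuation t' = O.valuation t ∧
        (∀ b ∈ Cusp k' m t, (p : ℝ) * spectralNorm ℚ_[p] k' κ ≤
          spectralNorm ℚ_[p] k' (b - (b₁ + b₂) / 2) → ∃ b' ∈ Cusp k' m t',
            spectralNorm ℚ_[p] k' (b' - b) ≤ spectralNorm ℚ_[p] k' κ) ∧
        ∃ b' ∈ Cusp k' m t', spectralNorm ℚ_[p] k' (b' - (b₁ + b₂) / 2) ≤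
          spectralNorm ℚ_[p] k' κ)
    (t : maxUnr k K) (ht : IsState s G k' O t)
    (hRD : RDs p (Cusp k' m t) ((p : ℝ) ^ a)⁻¹ 1 ((p : ℝ) ^ b)) (ρ : ℝ) (hρ : 0 < ρ) :
    ∃ t' : maxUnr k K, IsState s G k' O t' ∧ O.valuation t' = O.valuation t ∧
      RDs p (Cusp k' m t') ((p : ℝ) ^ a)⁻¹ ρ ((p : ℝ) ^ b) := by
  have hp : p.Prime := Fact.out
  let inst1 : NontriviallyNormedField k' := spectralNorm.nontriviallyNormedField ℚ_[p] k'
  have hu : IsUltrametricDist k' :=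
    IsUltrametricDist.isUltrametricDist_of_isNonarchimedean_norm isNonarchimedean_spectralNorm
  have hnn : ∀ x : ℚ_[p], ‖algebraMap ℚ_[p] k' x‖ = ‖x‖ := fun x => spectralNorm_extends x
  have hproper : ProperSpace k' := by
    let _ : NormedAlgebra ℚ_[p] k' := spectralNorm.normedAlgebra ℚ_[p] k'
    exact FiniteDimensional.proper ℚ_[p] k'
  have hpk : ‖(p : k')‖ = (p : ℝ)⁻¹ := by
    rw [← map_natCast (algebraMap ℚ_[p] k'), hnn, Padic.norm_p]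
  have hunit : ∀ m : ℕ, ¬ p ∣ m → ‖(m : k')‖ = 1 := by
    intro m hm
    rw [← map_natCast (algebraMap ℚ_[p] k'), hnn, Padic.norm_natCast_eq_one_iff]
    exact (Nat.Prime.coprime_iff_not_dvd hp).2 hm
  obtain ⟨⟨t', h1, h2⟩, h3⟩ := scale_norm hp hp2 hpk hunit hn hpn a b ha hna hb
    (St := {t' : maxUnr k K // IsState s G k' O t' ∧ O.valuation t' = O.valuation t})
    (fun t' => Cusp k' m t'.1) (by
      rintro ⟨t', h1, h2⟩ b₁ h₁ b₂ h₂ b₃ h₃ κ hne hκ hle hlt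
      obtain ⟨t'', h3, h4, h5, h6⟩ := hzoom t' h1 b₁ b₂ b₃ κ h₁ h₂ h₃ hne hκ hle hlt
      exact ⟨⟨t'', h3, h4.trans h2⟩, h5, h6⟩) ⟨t, ht, rfl⟩ hRD ρ hρ
  exact ⟨t', h1, h2, h3⟩

end ctx

end P025H907
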