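import Mathlib

/-!
# Derivations along a homomorphism vanishing on a separating element vanish
-/

open Polynomial

namespace P025H907

section

variable {C K L : Type*} [Field C] [Field K] [Field L] [Algebra C K] [CharZero K]

/-- a map `δ : K → L` which is a derivation along `Ψ : K → L`. -/
structure IsDerAlong (Ψ : K →+* L) (δ : K → L) : Prop where
  add : ∀ x y, δ (x + y) = δ x + δ y
  mul : ∀ x y, δ (x * y) = Ψ x * δ y + Ψ y * δ x

variable {Ψ : K →+* L} {δ : K → L}

lemma IsDerAlong.zero (h : IsDerAlong Ψ δ) : δ 0 = 0 := by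
  have := h.add 0 0
  rw [add_zero] at this
  simpa using this

lemma IsDerAlong.one (h : IsDerAlong Ψ δ) : δ 1 = 0 := by
  have := h.mul 1 1
  rw [mul_one, map_one, one_mul] at this
  simpa using this

lemma IsDerAlong.inv (h : IsDerAlong Ψ δ) {x : K} (hx : x ≠ 0) (h0 : δ x = 0) : δ x⁻¹ = 0 := by
  have h1 := h.mul x x⁻¹
  rw [mul_inv_cancel₀ hx, h.one, h0, mul_zero, add_zero] at h1
  exact ((mul_eq_zero.1 h1.symm).resolve_left ((_root_.map_ne_zero Ψ).2 hx))

/-- the field of constants -/
def IsDerAlong.ker (h : IsDerAlong Ψ δ) (hC : ∀ c : C, δ (algebraMap C K c) = 0) :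
    IntermediateField C K where
  carrier := {x | δ x = 0}
  mul_mem' {a b} ha hb := by
    change δ (a * b) = 0
    rw [h.mul, show δ a = 0 from ha, show δ b = 0 from hb, mul_zero, mul_zero, add_zero]
  add_mem' {a b} ha hb := by
    change δ (a + b) = 0
    rw [h.add, show δ a = 0 from ha, show δ b = 0 from hb, add_zero]
  algebraMap_mem' c := hC c
  inv_mem' x hx := by
    rcases eq_or_ne x 0 with rfl | h0
    · rw [inv_zero]; exact hx
    · exact h.inv h0 hx

lemma IsDerAlong.pow (h : IsDerAlong Ψ δ) (x : K) (n : ℕ) :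
    δ (x ^ (n + 1)) = (n + 1 : L) * Ψ x ^ n * δ x := by
  induction n with
  | zero => simp
  | succ n ih =>
    rw [pow_succ, h.mul, ih, map_pow]
    push_cast
    ring

lemma IsDerAlong.aeval (h : IsDerAlong Ψ δ) {F : IntermediateField C K}
    (hF : ∀ a : F, δ (a : K) = 0) (x : K) (P : F[X]) :
    δ (Polynomial.aeval x P) = Ψ (Polynomial.aeval x (derivative P)) * δ x := by
  induction P using Polynomial.induction_on with
  | C a =>
    rw [aeval_C, derivative_C, map_zero, map_zero, zero_mul]
    exact hF a
  | add p q hp hq => rw [map_add, h.add, hp, hq, derivative_add, map_add, map_add, add_mul]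
  | monomial n a ih =>
    rw [map_mul, aeval_C, map_pow, aeval_X, h.mul, h.pow]
    have h1 : δ (algebraMap F K a) = 0 := hF a
    rw [h1, mul_zero, add_zero, derivative_C_mul_X_pow, map_mul, aeval_C, map_pow, aeval_X,
      Nat.add_sub_cancel, map_mul, map_pow, map_mul, map_mul]
    simp
    ring

/-- **a derivation along `Ψ` killing the constants and a separating element is zero.** -/
theorem IsDerAlong.eq_zero (h : IsDerAlong Ψ δ) (hC : ∀ c : C, δ (algebraMap C K c) = 0)
    (s : K) (hs : δ s = 0) (halg : Algebra.IsAlgebraic (IntermediateField.adjoin C {s}) K)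
    (y : K) : δ y = 0 := by
  have hle : IntermediateField.adjoin C {s} ≤ h.ker hC := by
    rw [IntermediateField.adjoin_le_iff, Set.singleton_subset_iff]
    exact hs
  have hF : ∀ a : IntermediateField.adjoin C {s}, δ (a : K) = 0 := fun a => hle a.2
  have hint : IsIntegral (IntermediateField.adjoin C {s}) y := (halg.isAlgebraic y).isIntegral
  have h1 := h.aeval hF y (minpoly (IntermediateField.adjoin C {s}) y)
  rw [minpoly.aeval, h.zero] at h1
  have h2 : (minpoly (IntermediateField.adjoin C {s}) y).Separable :=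
    (minpoly.irreducible hint).separable
  have h3 := h2.aeval_derivative_ne_zero (minpoly.aeval _ y)
  exact (mul_eq_zero.1 h1.symm).resolve_left ((_root_.map_ne_zero Ψ).2 h3)

end

end P025H907
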