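import Vale.Agent.P025.R2.H210.Disc
import Vale.Agent.P025.R2.H907.LocSpec
import Vale.Agent.P025.R2.H907.DerAlong
import Vale.Agent.P025.R2.H587.HTDefs
import Vale.Agent.P025.R2.H492.Der
import Vale.Agent.P025.R2.H666.Poles

/-!
# P025 G-LEMA T2b: from a system on `K` to the normal form on all small discs around `P`
-/

open Polynomial TensorProduct P025H373 P025H544 P025H628 Vale.Agent.P019P Filter Topology

set_option linter.unusedSectionVars false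

universe u v

namespace P025H907

noncomputable section

variable {C : Type u} [NontriviallyNormedField C] [IsUltrametricDist C] [CompleteSpace C]
  [IsAlgClosed C]

section order

lemma coeff_ofPS_neg (g : PowerSeries C) {i : ℤ} (hi : i < 0) :
    (HahnSeries.ofPowerSeries ℤ C g).coeff i = 0 := by
  rw [HahnSeries.ofPowerSeries_apply]
  apply HahnSeries.embDomain_of_notMem_range
  rintro ⟨n, hn⟩
  simp at hn
  omega

lemma algebraMap_Laurent (a : C) : algebraMap C (LaurentSeries C) a = HahnSeries.C a := by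
  rw [HahnSeries.algebraMap_apply', PowerSeries.algebraMap_apply, HahnSeries.ofPowerSeries_C]
  rfl

/-- order of the expansion at infinity of an element of `A2` with non-zero value. -/
lemma order_lamInf_unit (w : A2 C) (hw : evInf C w ≠ 0) :
    (P025H210.lamInf (⟨(w : F0 C), mem_F2_of_A2 w.2⟩ : F2 C)).order = 0 := by
  obtain ⟨y, hy, hwy⟩ := mem_A2_of_sub w.2
  obtain ⟨g, hg⟩ := P025H210.lamInf_A2 (⟨(w : F0 C), mem_F2_of_A2 w.2⟩ : F2 C) w.2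
  obtain ⟨g', hg'⟩ := P025H210.lamInf_A2 (⟨y, mem_F2_of_A2 hy⟩ : F2 C) hy
  have h1 : (⟨(w : F0 C), mem_F2_of_A2 w.2⟩ : F2 C) =
      algebraMap C (F2 C) (evInf C w) + P025H210.t2⁻¹ * ⟨y, mem_F2_of_A2 hy⟩ := by
    ext
    exact hwy
  have h2 : (P025H210.lamInf (⟨(w : F0 C), mem_F2_of_A2 w.2⟩ : F2 C)).coeff 0 = evInf C w := by
    rw [h1, map_add, map_mul, map_inv₀, P025H210.lamInf_t2, hg', AlgHom.commutes,
      HahnSeries.inv_single, inv_one, neg_neg, HahnSeries.coeff_add]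
    have h3 : (HahnSeries.single (1 : ℤ) (1 : C) * HahnSeries.ofPowerSeries ℤ C g').coeff 0 = 0 := by
      have := HahnSeries.coeff_single_mul_add (r := (1 : C))
        (x := HahnSeries.ofPowerSeries ℤ C g') (a := (-1 : ℤ)) (b := (1 : ℤ))
      rw [neg_add_cancel] at this
      rw [this, coeff_ofPS_neg g' (by norm_num), mul_zero]
    rw [h3, add_zero, algebraMap_Laurent, HahnSeries.C_apply, HahnSeries.coeff_single_same]
  refine le_antisymm (HahnSeries.order_le_of_coeff_ne_zero (by rw [h2]; exact hw)) ?_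
  by_contra hlt
  rw [not_le] at hlt
  have h4 : P025H210.lamInf (⟨(w : F0 C), mem_F2_of_A2 w.2⟩ : F2 C) = 0 := by
    rw [← HahnSeries.coeff_order_eq_zero]
    conv_lhs => rw [hg]
    exact coeff_ofPS_neg g (hg ▸ hlt)
  rw [h4, HahnSeries.coeff_zero] at h2
  exact hw h2.symm

/-- order at infinity -/
def oinf (x : F2 C) : ℤ := (P025H210.lamInf x).order

lemma oinf_mul {x y : F2 C} (hx : x ≠ 0) (hy : y ≠ 0) : oinf (x * y) = oinf x + oinf y := by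
  unfold oinf
  rw [map_mul, HahnSeries.order_mul ((_root_.map_ne_zero P025H210.lamInf).2 hx)
    ((_root_.map_ne_zero P025H210.lamInf).2 hy)]

lemma oinf_one : oinf (1 : F2 C) = 0 := by
  unfold oinf
  rw [map_one, HahnSeries.order_one]

lemma oinf_pow {x : F2 C} (hx : x ≠ 0) (n : ℕ) : oinf (x ^ n) = n * oinf x := by
  induction n with
  | zero => rw [pow_zero, oinf_one]; simp
  | succ n ih =>
    rw [pow_succ, oinf_mul (pow_ne_zero _ hx) hx, ih]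
    push_cast
    ring

lemma t2_ne0 : (P025H210.t2 : F2 C) ≠ 0 := by
  intro h
  exact tt_ne0 (congrArg (fun z : F2 C => (z : F0 C)) h)

lemma oinf_t2 : oinf (P025H210.t2 : F2 C) = -1 := by
  unfold oinf
  rw [P025H210.lamInf_t2, HahnSeries.order_single one_ne_zero]

lemma oinf_const {a : C} (ha : a ≠ 0) : oinf (algebraMap C (F2 C) a) = 0 := by
  unfold oinf
  rw [AlgHom.commutes, algebraMap_Laurent, HahnSeries.C_apply, HahnSeries.order_single ha]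

end order

section main

variable [CharZero C] {K : Type v} [Field K] [Algebra C K]

/-- the boundary norm of a chart -/
def nmψ (ψ : K →ₐ[C] F2 C) : AbsoluteValue K ℝ where
  toFun y := ‖(ψ y : F0 C)‖
  map_mul' x y := by rw [map_mul, IntermediateField.coe_mul, norm_mul]
  nonneg' _ := norm_nonneg _
  eq_zero' x := by
    rw [norm_eq_zero]
    constructor
    · intro h
      exact (map_eq_zero ψ).1 (Subtype.ext h)
    · rintro rfl
      rw [map_zero]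
      rfl
  add_le' x y := by
    rw [map_add, IntermediateField.coe_add]
    exact norm_add_le _ _

lemma isNm_nmψ (ψ : K →ₐ[C] F2 C) : P025H587.IsNm C (nmψ ψ) where
  na x y := by
    change ‖(ψ (x + y) : F0 C)‖ ≤ max ‖(ψ x : F0 C)‖ ‖(ψ y : F0 C)‖
    rw [map_add, IntermediateField.coe_add]
    exact IsUltrametricDist.norm_add_le_max _ _
  const c := by
    change ‖(ψ (algebraMap C K c) : F0 C)‖ = ‖c‖
    rw [AlgHom.commutes]
    exact norm_algebraMap_C c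

lemma logDer_mul_pow {a v : F0 C} (ha : a ≠ 0) (hv : v ≠ 0) (n : ℕ) :
    der C (a * v ^ n) / (a * v ^ n) = der C a / a + n * (der C v / v) := by
  rcases n with _ | n
  · simp
  · rw [Derivation.leibniz, Derivation.leibniz_pow]
    simp only [smul_eq_mul, nsmul_eq_mul, Nat.add_sub_cancel]
    have := pow_ne_zero n hv
    field_simp
    ring

/-- derivations along a chart are proportional -/
lemma der_prop [CFF C K] (ψ : K →ₐ[C] F2 C) (Der : Derivation C K K) {s : K}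
    (hs : ∀ a : C, s ≠ algebraMap C K a) (y : K) :
    der C (ψ y : F0 C) * (ψ (Der s) : F0 C) = der C (ψ s : F0 C) * (ψ (Der y) : F0 C) := by
  have : CharZero K := charZero_of_injective_algebraMap (algebraMap C K).injective
  let Ψ : K →+* F0 C := (algebraMap (F2 C) (F0 C)).comp (ψ : K →+* F2 C)
  have hΨ : ∀ x, Ψ x = (ψ x : F0 C) := fun x => rfl
  have h : IsDerAlong Ψ (fun y => der C (Ψ y) * Ψ (Der s) - der C (Ψ s) * Ψ (Der y)) := by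
    constructor
    · intro x y
      simp only [map_add]
      ring
    · intro x y
      simp only [map_mul, Derivation.leibniz, smul_eq_mul, map_add]
      ring
  have hfd := (finite_of_notMem hs).2
  have hC : ∀ c : C, (fun y => der C (Ψ y) * Ψ (Der s) - der C (Ψ s) * Ψ (Der y))
      (algebraMap C K c) = 0 := by
    intro c
    have h1 : Ψ (algebraMap C K c) = algebraMap C (F0 C) c := by
      rw [hΨ, AlgHom.commutes]
      rfl
    change der C (Ψ (algebraMap C K c)) * Ψ (Der s) - der C (Ψ s) * Ψ (Der (algebraMap C K c)) = 0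
    rw [h1, der_const, Derivation.map_algebraMap, map_zero, mul_zero, zero_mul, sub_zero]
  have h2 := h.eq_zero hC s (sub_self _) inferInstance y
  exact sub_eq_zero.1 h2

/-- the logarithmic derivative of the limit function is the Hodge-Tate form. -/
theorem logDer_eq [CFF C K] {p : ℕ} (hpC : ‖(p : C)‖ < 1) (ψ : K →ₐ[C] F2 C)
    (f : ℕ → K) (Der : Derivation C K K) (θ : K) (hθ : P025H587.IsTheta p Der f θ)
    {s : K} (hs : ∀ a : C, s ≠ algebraMap C K a)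
    {X : F0 C} (hX : X ≠ 0) {v : ℕ → F0 C} (hv : ∀ m, v m ≠ 0)
    (hXv : ∀ m, (ψ (f m) : F0 C) = X * v m ^ p ^ m) :
    der C X / X * (ψ (Der s) : F0 C) = der C (ψ s : F0 C) * (ψ θ : F0 C) := by
  obtain ⟨A, hA⟩ := hθ (nmψ ψ) (isNm_nmψ ψ)
  rw [← sub_eq_zero, ← norm_le_zero_iff]
  set B : ℝ := ‖(ψ (Der s) : F0 C)‖ + ‖der C (ψ s : F0 C)‖ * A with hB
  have hA0 : 0 ≤ A := by
    have := (nmψ ψ).nonneg (Der (f 0) / f 0 - θ)
    have h2 := hA 0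
    rw [pow_zero, mul_one] at h2
    exact this.trans h2
  have hpn : ∀ m : ℕ, 0 ≤ ‖(p : C)‖ ^ m := fun m => pow_nonneg (norm_nonneg _) m
  have key : ∀ m, ‖der C X / X * (ψ (Der s) : F0 C) - der C (ψ s : F0 C) * (ψ θ : F0 C)‖ ≤
      B * ‖(p : C)‖ ^ m := by
    intro m
    have h1 := der_prop ψ Der hs (f m)
    have hψf : (ψ (f m) : F0 C) ≠ 0 := by
      rw [hXv]
      exact mul_ne_zero hX (pow_ne_zero _ (hv m))
    have h2 : (ψ (Der (f m) / f m - θ) : F0 C) =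
        (ψ (Der (f m)) : F0 C) / (ψ (f m) : F0 C) - (ψ θ : F0 C) := by
      rw [map_sub, map_div₀]
      rfl
    have h3 : der C (ψ (f m) : F0 C) / (ψ (f m) : F0 C) =
        der C X / X + (p ^ m : ℕ) * (der C (v m) / v m) := by
      rw [hXv, logDer_mul_pow hX (hv m)]
    have h4 : der C X / X * (ψ (Der s) : F0 C) - der C (ψ s : F0 C) * (ψ θ : F0 C) =
        der C (ψ s : F0 C) * (ψ (Der (f m) / f m - θ) : F0 C) -
          (p ^ m : ℕ) * (der C (v m) / v m) * (ψ (Der s) : F0 C) := by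
      rw [h2, mul_sub, ← mul_div_assoc, ← h1, mul_div_right_comm, h3]
      ring
    have h5 : ‖(((p ^ m : ℕ) : F0 C))‖ = ‖(p : C)‖ ^ m := by
      have : ((p ^ m : ℕ) : F0 C) = algebraMap C (F0 C) ((p : C) ^ m) := by
        rw [map_pow, map_natCast]
        push_cast
        ring
      rw [this, norm_algebraMap_C, norm_pow]
    have h6 : ‖der C (v m) / v m‖ ≤ 1 := by
      rw [norm_div, div_le_one (norm_pos_iff.2 (hv m))]
      exact norm_der_le _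
    rw [h4]
    refine (norm_sub_le _ _).trans ?_
    rw [norm_mul, norm_mul, norm_mul, h5]
    have h7 : ‖(ψ (Der (f m) / f m - θ) : F0 C)‖ ≤ A * ‖(p : C)‖ ^ m := hA m
    calc ‖der C (ψ s : F0 C)‖ * ‖(ψ (Der (f m) / f m - θ) : F0 C)‖ +
          ‖(p : C)‖ ^ m * ‖der C (v m) / v m‖ * ‖(ψ (Der s) : F0 C)‖
        ≤ ‖der C (ψ s : F0 C)‖ * (A * ‖(p : C)‖ ^ m) +
          ‖(p : C)‖ ^ m * 1 * ‖(ψ (Der s) : F0 C)‖ := by
          have := hpn m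
          gcongr
      _ = B * ‖(p : C)‖ ^ m := by rw [hB]; ring
  have h1 : Tendsto (fun m => B * ‖(p : C)‖ ^ m) atTop (𝓝 (B * 0)) :=
    (tendsto_pow_atTop_nhds_zero_of_lt_one (norm_nonneg _) hpC).const_mul B
  rw [mul_zero] at h1
  exact ge_of_tendsto' h1 key

variable [Algebra (RatFunc C) K] [IsScalarTower C (RatFunc C) K]
  [FiniteDimensional (RatFunc C) K] [CFF C K]

lemma TT_nc (P : P025H210.Pole C K) (a : C) : P025H210.TT C K ≠ algebraMap C K a :=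
  P025H492.nc_of_ord (P := P.1) (ne_of_lt P.2) a

/-- the order of vanishing of `X - 1` is `e`. -/
theorem order_eq_of_logDer (D : P025H210.Charts C K) (P : P025H210.Pole C K) (γ : Cˣ)
    (hr : D.r0 ≤ ‖(γ : C)‖ ^ P.N) (Der : Derivation C K K) (θ : K) (hθ0 : θ ≠ 0)
    (s : K) (hs : ord P.1 s = 1) (hDs : Der s ≠ 0)
    (e : ℕ) (hord : ord P.1 θ - ord P.1 (Der s) = (e : ℤ) - 1)
    (X : F0 C) (hXA : X ∈ A2 C) (hX1 : ‖X - 1‖ < 1) (hXe : evInf C ⟨X, hXA⟩ = 1)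
    (h : der C X / X * (D.ψ P γ (Der (P025H210.TT C K)) : F0 C) =
      der C (D.ψ P γ (P025H210.TT C K) : F0 C) * (D.ψ P γ θ : F0 C)) :
    e ≠ 0 ∧ ∃ w : A2 C, X - 1 = (tt C)⁻¹ ^ e * w ∧ evInf C w ≠ 0 := by
  have ht := tt_ne0 (C := C)
  have hγ : algebraMap C (F0 C) ((γ : C) ^ P.N) ≠ 0 :=
    (_root_.map_ne_zero (algebraMap C (F0 C))).2 (pow_ne_zero _ γ.ne_zero)
  have hNC : (P.N : C) ≠ 0 := Nat.cast_ne_zero.2 P.N_pos.ne'
  have hψT : (D.ψ P γ (P025H210.TT C K) : F0 C) =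
      algebraMap C (F0 C) ((γ : C) ^ P.N) * (tt C) ^ P.N := by
    rw [D.map_T P γ hr]
    rfl
  obtain ⟨k, hk⟩ := Nat.exists_eq_succ_of_ne_zero P.N_pos.ne'
  have hder : der C (D.ψ P γ (P025H210.TT C K) : F0 C) =
      algebraMap C (F0 C) ((P.N : C) * (γ : C) ^ P.N) * (tt C) ^ k := by
    rw [hψT, Derivation.leibniz, der_const, Derivation.leibniz_pow, der_tt]
    simp only [smul_eq_mul, nsmul_eq_mul, mul_one, mul_zero, add_zero, map_mul, map_natCast]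
    rw [hk, Nat.succ_sub_one]
    ring
  have hc0 : (P.N : C) * (γ : C) ^ P.N ≠ 0 := mul_ne_zero hNC (pow_ne_zero _ γ.ne_zero)
  have hT : ord P.1 (P025H210.TT C K) ≠ 0 := by
    rw [P.ord_eq]
    have := P.N_pos
    omega
  obtain ⟨hDT, hDTo⟩ := P025H492.ord_der hs hDs hT
  have hψθ : (D.ψ P γ θ) ≠ 0 := (_root_.map_ne_zero (D.ψ P γ)).2 hθ0
  have hψD : (D.ψ P γ (Der (P025H210.TT C K))) ≠ 0 := (_root_.map_ne_zero (D.ψ P γ)).2 hDT
  have hrhs : der C (D.ψ P γ (P025H210.TT C K) : F0 C) * (D.ψ P γ θ : F0 C) ≠ 0 := by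
    rw [hder]
    refine mul_ne_zero (mul_ne_zero ((_root_.map_ne_zero (algebraMap C (F0 C))).2 hc0)
      (pow_ne_zero _ ht)) ?_
    intro h0
    exact hψθ (Subtype.ext h0)
  have hXne : X - 1 ≠ 0 := by
    intro h0
    have h1 : X = 1 := sub_eq_zero.1 h0
    rw [h1, Derivation.map_one_eq_zero, zero_div, zero_mul] at h
    exact hrhs h.symm
  have hXm : X - 1 ∈ A2 C := (A2 C).sub_mem hXA (A2 C).one_mem
  obtain ⟨e', w, hw, hw0⟩ := exists_order (X - 1) hXm hXne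
  have he' : e' ≠ 0 := by
    rintro rfl
    rw [pow_zero, one_mul] at hw
    apply hw0
    have h1 : w = ⟨X, hXA⟩ - 1 := by
      ext
      exact hw.symm
    rw [h1, map_sub, hXe, map_one, sub_self]
  obtain ⟨w', hw', hw'0⟩ := logDer_order X e' he' w hw hw0 hX1
  have hw'1 : evInf C w' ≠ 0 := by
    rw [hw'0]
    exact mul_ne_zero (neg_ne_zero.2 (Nat.cast_ne_zero.2 he')) hw0
  have hw'2 : (⟨(w' : F0 C), mem_F2_of_A2 w'.2⟩ : F2 C) ≠ 0 := by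
    intro h0
    apply hw'1
    have h1 : w' = 0 := by
      ext
      exact congrArg (fun z : F2 C => (z : F0 C)) h0
    rw [h1, map_zero]
  -- the equation in `F2`
  have hF : (⟨(w' : F0 C), mem_F2_of_A2 w'.2⟩ : F2 C) * D.ψ P γ (Der (P025H210.TT C K)) =
      P025H210.t2 ^ (e' + 1) * (algebraMap C (F2 C) ((P.N : C) * (γ : C) ^ P.N) *
        P025H210.t2 ^ k * D.ψ P γ θ) := by
    ext
    change (w' : F0 C) * (D.ψ P γ (Der (P025H210.TT C K)) : F0 C) =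
      (tt C) ^ (e' + 1) * (algebraMap C (F0 C) ((P.N : C) * (γ : C) ^ P.N) *
        (tt C) ^ k * (D.ψ P γ θ : F0 C))
    rw [← hder, ← h, hw', inv_pow]
    have := pow_ne_zero (e' + 1) ht
    field_simp
  have hcF : algebraMap C (F2 C) ((P.N : C) * (γ : C) ^ P.N) ≠ 0 :=
    (_root_.map_ne_zero (algebraMap C (F2 C))).2 hc0
  have hO := congrArg oinf hF
  rw [oinf_mul hw'2 hψD, oinf_mul (pow_ne_zero _ t2_ne0)
    (mul_ne_zero (mul_ne_zero hcF (pow_ne_zero _ t2_ne0)) hψθ),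
    oinf_mul (mul_ne_zero hcF (pow_ne_zero _ t2_ne0)) hψθ, oinf_mul hcF (pow_ne_zero _ t2_ne0),
    oinf_const hc0, oinf_pow t2_ne0, oinf_pow t2_ne0, oinf_t2] at hO
  have h1 : oinf (⟨(w' : F0 C), mem_F2_of_A2 w'.2⟩ : F2 C) = 0 := order_lamInf_unit w' hw'1
  have h2 : oinf (D.ψ P γ (Der (P025H210.TT C K))) = ord P.1 (Der (P025H210.TT C K)) :=
    D.order_eq P γ hr _ hDT
  have h3 : oinf (D.ψ P γ θ) = ord P.1 θ := D.order_eq P γ hr _ hθ0
  rw [h1, h2, h3, hDTo, P.ord_eq, hk] at hO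
  have h4 : e' = e := by
    push_cast at hO
    omega
  subst h4
  exact ⟨he', w, hw, hw0⟩

lemma exists_norm_ge (r : ℝ) : ∃ γ : Cˣ, r ≤ ‖(γ : C)‖ ∧ 1 < ‖(γ : C)‖ := by
  obtain ⟨c, hc⟩ := NormedField.exists_lt_norm C (max r 1)
  have hc0 : c ≠ 0 := by
    rintro rfl
    rw [norm_zero] at hc
    have := le_max_right r 1
    linarith
  exact ⟨Units.mk0 c hc0, (le_max_left _ _).trans hc.le, (le_max_right _ _).trans_lt hc⟩

/-- **Local normal form.** Core version: the only divisibility used is on the small discs. -/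
theorem local_normal_form_core {p : ℕ} (hp : p.Prime) (hpC : ‖(p : C)‖ < 1)
    (D : P025H210.Charts C K) (P : P025H210.Pole C K)
    (f : ℕ → K) (hne : ∀ m, f m ≠ 0) (hsucc : ∀ m, ∃ h : K, f (m + 1) = f m * h ^ p ^ m)
    (hdiv : ∃ r1 : ℝ, ∀ γ : Cˣ, r1 ≤ ‖(γ : C)‖ ^ P.N → ∀ m,
      DivOn (p ^ m) ((D.ψ P γ (f m) : F2 C) : F0 C))
    (Der : Derivation C K K) (θ : K)
    (hθ : P025H587.IsTheta p Der f θ) (hθ0 : θ ≠ 0)
    (s : K) (hs : ord P.1 s = 1) (hDs : Der s ≠ 0)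
    (e : ℕ) (hord : ord P.1 θ - ord P.1 (Der s) = (e : ℤ) - 1) :
    ∃ (γ₀ : Cˣ) (R : ℝ) (w : C), w ≠ 0 ∧ 1 ≤ R ∧ D.r0 ≤ ‖(γ₀ : C)‖ ^ P.N ∧
      ∀ δ : Cˣ, R ≤ ‖(δ : C)‖ →
        ∃ α : F0 C ≃ₐ[C] F0 C, (∀ x, α x ∈ F2 C ↔ x ∈ F2 C) ∧
          ∀ m : ℕ, ∃ g : F0 C, g ∈ F2 C ∧ g ≠ 0 ∧
            α (D.ψ P (γ₀ * δ) (f m) : F0 C) =
              (1 + algebraMap C (F0 C) (w * (δ : C)⁻¹ ^ e) * (tt C)⁻¹ ^ e) * g ^ p ^ m := by
  -- a first disc
  obtain ⟨r1, hdiv⟩ := hdiv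
  obtain ⟨γ₁, hγ₁, hγ₁1⟩ := exists_norm_ge (C := C) (max D.r0 r1)
  have hrm : max D.r0 r1 ≤ ‖(γ₁ : C)‖ ^ P.N := by
    refine hγ₁.trans ?_
    calc ‖(γ₁ : C)‖ = ‖(γ₁ : C)‖ ^ 1 := (pow_one _).symm
      _ ≤ ‖(γ₁ : C)‖ ^ P.N := pow_le_pow_right₀ hγ₁1.le P.N_pos
  have hr1 : D.r0 ≤ ‖(γ₁ : C)‖ ^ P.N := (le_max_left _ _).trans hrm
  have hr1' : r1 ≤ ‖(γ₁ : C)‖ ^ P.N := (le_max_right _ _).trans hrm
  obtain ⟨c, -, hc⟩ := exists_norm_ge (C := C) 1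
  choose h hh using hsucc
  have hh0 : ∀ m, h m ≠ 0 := by
    intro m h0
    have h1 := hh m
    rw [h0, zero_pow (pow_ne_zero _ hp.ne_zero), mul_zero] at h1
    exact hne _ h1
  have hψ0 : ∀ (γ : Cˣ) (y : K), y ≠ 0 → (D.ψ P γ y : F0 C) ≠ 0 := by
    intro γ y hy h0
    exact hy ((_root_.map_eq_zero (D.ψ P γ)).1 (Subtype.ext h0))
  obtain ⟨X, hXA, hX1, hXe, hv⟩ := exists_limit hp hpC (fun m => (D.ψ P γ₁ (f m) : F0 C))
    (fun m => (D.ψ P γ₁ (h m) : F0 C)) (hdiv γ₁ hr1')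
    (fun m => ⟨(D.ψ P γ₁ (h m)).2, hψ0 _ _ (hh0 m)⟩)
    (fun m => by
      rw [hh m, map_mul, map_pow]
      rfl)
    (fun m => (D.ψ P γ₁ (f m)).2) (c : C) hc
  choose v hv0 hXv using hv
  have hγ₀ : D.r0 ≤ ‖((γ₁ * c : Cˣ) : C)‖ ^ P.N := by
    refine hr1.trans ?_
    rw [Units.val_mul, norm_mul]
    refine pow_le_pow_left₀ (norm_nonneg _) ?_ _
    exact le_mul_of_one_le_right (norm_nonneg _) hc.le
  have hXv2 : ∀ m, (D.ψ P (γ₁ * c) (f m) : F0 C) = X * (v m : F0 C) ^ p ^ m := by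
    intro m
    rw [D.scale P γ₁ c hr1 hc.le (f m)]
    exact hXv m
  have hv0' : ∀ m, (v m : F0 C) ≠ 0 := fun m h0 => hv0 m (Subtype.ext h0)
  have hX0 : X ≠ 0 := by
    rintro rfl
    rw [zero_sub, norm_neg, norm_one] at hX1
    exact lt_irrefl _ hX1
  have hlog := logDer_eq hpC (D.ψ P (γ₁ * c)) f Der θ hθ (TT_nc P) hX0 hv0' hXv2
  obtain ⟨he, w, hw, hw0⟩ := order_eq_of_logDer D P (γ₁ * c) hγ₀ Der θ hθ0 s hs hDs e hord X hXA
    hX1 hXe hlog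
  obtain ⟨r, hr⟩ := exists_normal_form X (mem_F2_of_A2 hXA) e he w hw hw0
  refine ⟨γ₁ * c, max 1 r, evInf C w, hw0, le_max_left _ _, hγ₀, fun δ hδ => ?_⟩
  have hδ1 : 1 ≤ ‖(δ : C)‖ := (le_max_left _ _).trans hδ
  obtain ⟨α, -, -, -, hαF, -, hα⟩ := hr (δ : C) δ.ne_zero hδ1 ((le_max_right _ _).trans hδ)
  refine ⟨α, hαF, fun m => ?_⟩
  refine ⟨α (sub2 (δ : C) δ.ne_zero hδ1 (v m) : F0 C), (hαF _).2 (sub2 (δ : C) δ.ne_zero hδ1 (v m)).2,
    ?_, ?_⟩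
  · refine (_root_.map_ne_zero α).2 ?_
    intro h0
    exact (_root_.map_ne_zero (sub2 (δ : C) δ.ne_zero hδ1)).2 (hv0 m) (Subtype.ext h0)
  · have h1 : D.ψ P (γ₁ * c) (f m) = ⟨X, mem_F2_of_A2 hXA⟩ * v m ^ p ^ m := by
      ext
      exact hXv2 m
    rw [D.scale P (γ₁ * c) δ hγ₀ hδ1 (f m), h1, map_mul, map_pow, IntermediateField.coe_mul,
      IntermediateField.coe_pow, map_mul, map_pow, hα]

/-- Local normal form, divisibility off a finite set `S` of places (T2a for `S` is `hD0`). -/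
theorem local_normal_form {p : ℕ} (hp : p.Prime) (hpC : ‖(p : C)‖ < 1)
    (D : P025H210.Charts C K) (P : P025H210.Pole C K)
    (f : ℕ → K) (hne : ∀ m, f m ≠ 0) (hsucc : ∀ m, ∃ h : K, f (m + 1) = f m * h ^ p ^ m)
    (S : Finset (Plk C K))
    (hdiv : ∀ m, ∀ Q : Plk C K, Q ∉ S → ((p ^ m : ℕ) : ℤ) ∣ ord Q (f m))
    (Der : Derivation C K K) (θ : K)
    (hθ : P025H587.IsTheta p Der f θ) (hθ0 : θ ≠ 0)
    (s : K) (hs : ord P.1 s = 1) (hDs : Der s ≠ 0)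
    (e : ℕ) (hord : ord P.1 θ - ord P.1 (Der s) = (e : ℤ) - 1)
    (hD0 : ∃ r1 : ℝ, ∀ γ : Cˣ, r1 ≤ ‖(γ : C)‖ ^ P.N → ∀ n : ℕ, n ≠ 0 → ∀ g : K, g ≠ 0 →
      (∀ Q : Plk C K, Q ∉ S → (n : ℤ) ∣ ord Q g) → DivOn n ((D.ψ P γ g : F2 C) : F0 C)) :
    ∃ (γ₀ : Cˣ) (R : ℝ) (w : C), w ≠ 0 ∧ 1 ≤ R ∧ D.r0 ≤ ‖(γ₀ : C)‖ ^ P.N ∧
      ∀ δ : Cˣ, R ≤ ‖(δ : C)‖ →
        ∃ α : F0 C ≃ₐ[C] F0 C, (∀ x, α x ∈ F2 C ↔ x ∈ F2 C) ∧
          ∀ m : ℕ, ∃ g : F0 C, g ∈ F2 C ∧ g ≠ 0 ∧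
            α (D.ψ P (γ₀ * δ) (f m) : F0 C) =
              (1 + algebraMap C (F0 C) (w * (δ : C)⁻¹ ^ e) * (tt C)⁻¹ ^ e) * g ^ p ^ m := by
  obtain ⟨r1, hD0⟩ := hD0
  exact local_normal_form_core hp hpC D P f hne hsucc
    ⟨r1, fun γ hγ m => hD0 γ hγ _ (pow_ne_zero _ hp.ne_zero) _ (hne m) (hdiv m)⟩
    Der θ hθ hθ0 s hs hDs e hord

/-- Local normal form, divisibility at the places with `|T|` large. -/
theorem local_normal_form_T {p : ℕ} (hp : p.Prime) (hpC : ‖(p : C)‖ < 1)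
    (D : P025H210.Charts C K) (P : P025H210.Pole C K)
    (f : ℕ → K) (hne : ∀ m, f m ≠ 0) (hsucc : ∀ m, ∃ h : K, f (m + 1) = f m * h ^ p ^ m)
    (r : ℝ) (hdiv : ∀ m, ∀ Q : Plk C K,
      (∀ a : C, ‖a‖ ≤ r → ord Q (P025H210.TT C K - algebraMap C K a) ≤ 0) →
      ((p ^ m : ℕ) : ℤ) ∣ ord Q (f m))
    (Der : Derivation C K K) (θ : K)
    (hθ : P025H587.IsTheta p Der f θ) (hθ0 : θ ≠ 0)
    (s : K) (hs : ord P.1 s = 1) (hDs : Der s ≠ 0)
    (e : ℕ) (hord : ord P.1 θ - ord P.1 (Der s) = (e : ℤ) - 1)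
    (hD0 : ∀ γ : Cˣ, D.r0 ≤ ‖(γ : C)‖ ^ P.N → ∀ n : ℕ, n ≠ 0 → ∀ g : K, g ≠ 0 →
      (∀ Q : Plk C K, (∀ a : C, ‖a‖ ≤ ‖(γ : C)‖ ^ P.N →
        ord Q (P025H210.TT C K - algebraMap C K a) ≤ 0) → (n : ℤ) ∣ ord Q g) →
      DivOn n ((D.ψ P γ g : F2 C) : F0 C)) :
    ∃ (γ₀ : Cˣ) (R : ℝ) (w : C), w ≠ 0 ∧ 1 ≤ R ∧ D.r0 ≤ ‖(γ₀ : C)‖ ^ P.N ∧
      ∀ δ : Cˣ, R ≤ ‖(δ : C)‖ →
        ∃ α : F0 C ≃ₐ[C] F0 C, (∀ x, α x ∈ F2 C ↔ x ∈ F2 C) ∧
          ∀ m : ℕ, ∃ g : F0 C, g ∈ F2 C ∧ g ≠ 0 ∧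
            α (D.ψ P (γ₀ * δ) (f m) : F0 C) =
              (1 + algebraMap C (F0 C) (w * (δ : C)⁻¹ ^ e) * (tt C)⁻¹ ^ e) * g ^ p ^ m := by
  refine local_normal_form_core hp hpC D P f hne hsucc ⟨max D.r0 r, fun γ hγ m => ?_⟩
    Der θ hθ hθ0 s hs hDs e hord
  refine hD0 γ ((le_max_left _ _).trans hγ) _ (pow_ne_zero _ hp.ne_zero) _ (hne m) (fun Q hQ => ?_)
  exact hdiv m Q (fun a ha => hQ a (ha.trans ((le_max_right _ _).trans hγ)))

/-- **T2b** (with T2a as the hypothesis `hdiv`). Normal form of a system at a zero of order `e - 1`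
of its Hodge-Tate form, on all small discs around `P`. -/
theorem system_normal_form_of {p : ℕ} (hp : p.Prime) (hpC : ‖(p : C)‖ < 1)
    (D : P025H210.Charts C K) (P : P025H210.Pole C K)
    (hdiv : ∀ γ : Cˣ, D.r0 ≤ ‖(γ : C)‖ ^ P.N → ∀ n : ℕ, n ≠ 0 → ∀ g : K, g ≠ 0 →
      (∀ P' : Plk C K, (n : ℤ) ∣ ord P' g) → DivOn n ((D.ψ P γ g : F2 C) : F0 C))
    (f : ℕ → K) (hf : P025H587.IsSys C p f) (Der : Derivation C K K) (θ : K)
    (hθ : P025H587.IsTheta p Der f θ) (hθ0 : θ ≠ 0)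
    (s : K) (hs : ord P.1 s = 1) (hDs : Der s ≠ 0)
    (e : ℕ) (hord : ord P.1 θ - ord P.1 (Der s) = (e : ℤ) - 1) :
    ∃ (γ₀ : Cˣ) (R : ℝ) (w : C), w ≠ 0 ∧ 1 ≤ R ∧ D.r0 ≤ ‖(γ₀ : C)‖ ^ P.N ∧
      ∀ δ : Cˣ, R ≤ ‖(δ : C)‖ →
        ∃ α : F0 C ≃ₐ[C] F0 C, (∀ x, α x ∈ F2 C ↔ x ∈ F2 C) ∧
          ∀ m : ℕ, ∃ g : F0 C, g ∈ F2 C ∧ g ≠ 0 ∧
            α (D.ψ P (γ₀ * δ) (f m) : F0 C) =
              (1 + algebraMap C (F0 C) (w * (δ : C)⁻¹ ^ e) * (tt C)⁻¹ ^ e) * g ^ p ^ m :=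
  local_normal_form_core hp hpC D P f hf.ne hf.succ
    ⟨D.r0, fun γ hγ m => hdiv γ hγ _ (pow_ne_zero _ hp.ne_zero) _ (hf.ne m)
      (fun P' => (P025H666.divBy_iff (hf.ne m)).1 (hf.div m) P')⟩
    Der θ hθ hθ0 s hs hDs e hord

end main

end

end P025H907
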