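import Vale.Agent.P025.R2.H373.Gauss

/-!
# G-LOCAL, basic facts on units of `A2`
-/

open Polynomial P025H373

universe u

namespace P025H907

noncomputable section

variable {C : Type u} [NontriviallyNormedField C] [IsUltrametricDist C] [CompleteSpace C]
  [IsAlgClosed C]

/-- `w` is a unit of `A2`. -/
def U2 (w : F0 C) : Prop := w ∈ A2 C ∧ w⁻¹ ∈ A2 C ∧ w ≠ 0

/-- all orders of `x` on `|t| > 1` are divisible by `n` -/
def DivOn (n : ℕ) (x : F0 C) : Prop := ∃ g ∈ F2 C, g ≠ 0 ∧ ∃ w, U2 w ∧ x = g ^ n * w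

lemma tt_ne0 : tt C ≠ 0 := by
  rw [← norm_ne_zero_iff, norm_tt]
  exact one_ne_zero

lemma const_mem_A2 (c : C) : algebraMap C (F0 C) c ∈ A2 C := (A2 C).algebraMap_mem c

lemma const_mem_A1 (c : C) : algebraMap C (F0 C) c ∈ A1 C := (A1 C).algebraMap_mem c

lemma mem_F2_of_A2 {x : F0 C} (hx : x ∈ A2 C) : x ∈ F2 C :=
  IntermediateField.subset_adjoin _ _ hx

lemma tt_mem_F2 : tt C ∈ F2 C := (F2 C).algebraMap_mem RatFunc.X

lemma U2.mul {x y : F0 C} (hx : U2 x) (hy : U2 y) : U2 (x * y) :=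
  ⟨(A2 C).mul_mem hx.1 hy.1, by rw [mul_inv]; exact (A2 C).mul_mem hx.2.1 hy.2.1,
    mul_ne_zero hx.2.2 hy.2.2⟩

lemma U2.inv {x : F0 C} (hx : U2 x) : U2 x⁻¹ :=
  ⟨hx.2.1, by rw [inv_inv]; exact hx.1, inv_ne_zero hx.2.2⟩

lemma U2.pow {x : F0 C} (hx : U2 x) (n : ℕ) : U2 (x ^ n) :=
  ⟨(A2 C).pow_mem hx.1 n, by rw [← inv_pow]; exact (A2 C).pow_mem hx.2.1 n, pow_ne_zero n hx.2.2⟩

lemma U2.const {c : C} (hc : c ≠ 0) : U2 (algebraMap C (F0 C) c) :=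
  ⟨const_mem_A2 c, by rw [← map_inv₀]; exact const_mem_A2 _,
    (_root_.map_ne_zero (algebraMap C (F0 C))).2 hc⟩

lemma U2.mem_F2 {x : F0 C} (hx : U2 x) : x ∈ F2 C := mem_F2_of_A2 hx.1

/-- value at infinity for elements -/
lemma evInf_mul' (x y : A2 C) : evInf C (x * y) = evInf C x * evInf C y := map_mul _ _ _

lemma U2.evInf_ne {x : F0 C} (hx : U2 x) : evInf C ⟨x, hx.1⟩ ≠ 0 := by
  intro h
  have h1 : evInf C (⟨x, hx.1⟩ * ⟨x⁻¹, hx.2.1⟩) = 1 := by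
    have : (⟨x, hx.1⟩ * ⟨x⁻¹, hx.2.1⟩ : A2 C) = 1 := by
      ext
      exact mul_inv_cancel₀ hx.2.2
    rw [this, map_one]
  rw [map_mul, h, zero_mul] at h1
  exact zero_ne_one h1

lemma U2.norm_eq {x : F0 C} (hx : U2 x) : ‖x‖ = ‖evInf C ⟨x, hx.1⟩‖ := by
  have h1 := norm_evInf_le (⟨x, hx.1⟩ : A2 C)
  have h2 := norm_evInf_le (⟨x⁻¹, hx.2.1⟩ : A2 C)
  have h3 : evInf C ⟨x, hx.1⟩ * evInf C ⟨x⁻¹, hx.2.1⟩ = 1 := by
    rw [← map_mul]
    have : (⟨x, hx.1⟩ * ⟨x⁻¹, hx.2.1⟩ : A2 C) = 1 := by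
      ext
      exact mul_inv_cancel₀ hx.2.2
    rw [this, map_one]
  refine le_antisymm ?_ h1
  have h4 : evInf C ⟨x⁻¹, hx.2.1⟩ = (evInf C ⟨x, hx.1⟩)⁻¹ := eq_inv_of_mul_eq_one_right h3
  rw [h4, norm_inv, norm_inv] at h2
  have h5 : 0 < ‖x‖ := norm_pos_iff.2 hx.2.2
  have h6 : 0 < ‖evInf C ⟨x, hx.1⟩‖ := norm_pos_iff.2 hx.evInf_ne
  exact (inv_le_inv₀ h6 h5).1 h2

lemma U2.one_add {h : F0 C} (hh : h ∈ A2 C) (h1 : ‖h‖ < 1) : U2 (1 + h) := by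
  have h0 : (1 + h) ≠ 0 := by
    intro h2
    have h3 : h = -1 := by linear_combination h2
    rw [h3, norm_neg, norm_one] at h1
    exact lt_irrefl _ h1
  have hm : 1 + h ∈ A2 C := (A2 C).add_mem (A2 C).one_mem hh
  exact ⟨hm, inv_mem_A2 hm h0 (wind_one_add h1), h0⟩

/-- the polynomial case of integrally closedness of `A2` -/
lemma monic_unit {P : C[X]} (hP : P.Monic) (hr : ∀ a ∈ P.roots, ‖a‖ ≤ 1) :
    U2 (aeval (tt C) P * (tt C)⁻¹ ^ P.natDegree) := by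
  have h0 : aeval (tt C) P ≠ 0 := by
    have h1 : aeval (tt C) P = algebraMap (RatFunc C) (F0 C) (algebraMap C[X] (RatFunc C) P) := by
      rw [algebraMap_poly_eq]
      rfl
    rw [h1]
    exact (_root_.map_ne_zero _).2 (RatFunc.algebraMap_ne_zero hP.ne_zero)
  have hne : aeval (tt C) P * (tt C)⁻¹ ^ P.natDegree ≠ 0 :=
    mul_ne_zero h0 (pow_ne_zero _ (inv_ne_zero tt_ne0))
  have hmem : aeval (tt C) P * (tt C)⁻¹ ^ P.natDegree ∈ A2 C := by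
    rw [aeval_eq_sum_range, Finset.sum_mul]
    refine (A2 C).sum_mem (fun i hi => ?_)
    have hi' : i ≤ P.natDegree := by simpa [Nat.lt_succ_iff] using hi
    have h2 : P.coeff i • (tt C) ^ i * (tt C)⁻¹ ^ P.natDegree =
        algebraMap C (F0 C) (P.coeff i) * (tt C)⁻¹ ^ (P.natDegree - i) := by
      rw [Algebra.smul_def, mul_assoc]
      congr 1
      rw [inv_pow, inv_pow, pow_sub₀ _ tt_ne0 hi']
      field_simp [tt_ne0 (C := C)]
    rw [h2]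
    exact (A2 C).mul_mem (const_mem_A2 _) ((A2 C).pow_mem inv_tt_mem_A2 _)
  have hw : wind C (aeval (tt C) P * (tt C)⁻¹ ^ P.natDegree) = 0 := by
    rw [wind_mul h0 (pow_ne_zero _ (inv_ne_zero tt_ne0)), wind_poly hP.ne_zero]
    have h3 : ∀ n : ℕ, wind C ((tt C)⁻¹ ^ n) = - n := by
      intro n
      induction n with
      | zero => simp
      | succ n ih =>
        rw [pow_succ, wind_mul (pow_ne_zero _ (inv_ne_zero tt_ne0)) (inv_ne_zero tt_ne0),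
          ih, wind_inv, wind_tt]
        push_cast
        ring
    rw [h3, Multiset.filter_eq_self.2 hr]
    have h4 : Multiset.card P.roots = P.natDegree :=
      (splits_iff_card_roots.1 (IsAlgClosed.splits P))
    rw [h4]
    ring
  exact ⟨hmem, inv_mem_A2 hmem hne hw, hne⟩

end

end P025H907
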