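import Vale.Agent.P025.R2.H907.Loc0

/-!
# G-LOCAL: roots of units of `A2` are units; behaviour of `sub2`
-/

open Polynomial P025H373

set_option linter.unusedSectionVars false

universe u

namespace P025H907

noncomputable section

variable {C : Type u} [NontriviallyNormedField C] [IsUltrametricDist C] [CompleteSpace C]
  [IsAlgClosed C]

lemma aeval_tt_mem_A1 (P : C[X]) : aeval (tt C) P ∈ A1 C := by
  rw [aeval_eq_sum_range]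
  refine (A1 C).sum_mem (fun i _ => (A1 C).smul_mem ((A1 C).pow_mem tt_mem_A1 i) _)

lemma aeval_tt_ne_zero {P : C[X]} (hP : P ≠ 0) : aeval (tt C) P ≠ 0 := by
  have h1 : aeval (tt C) P = algebraMap (RatFunc C) (F0 C) (algebraMap C[X] (RatFunc C) P) := by
    rw [algebraMap_poly_eq]
    rfl
  rw [h1]
  exact (_root_.map_ne_zero _).2 (RatFunc.algebraMap_ne_zero hP)

lemma algebraMap_rat_eq (g : RatFunc C) : algebraMap (RatFunc C) (F0 C) g =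
    aeval (tt C) g.num / aeval (tt C) g.denom := by
  conv_lhs => rw [← g.num_div_denom]
  rw [map_div₀, algebraMap_poly_eq, algebraMap_poly_eq]
  rfl

lemma wind_pow {x : F0 C} (hx : x ≠ 0) (n : ℕ) : wind C (x ^ n) = n * wind C x := by
  induction n with
  | zero => simp
  | succ n ih =>
    rw [pow_succ, wind_mul (pow_ne_zero _ hx) hx, ih]
    push_cast
    ring

lemma U2.wind_eq {x : F0 C} (hx : U2 x) : wind C x = 0 := by
  have h1 := wind_nonpos hx.1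
  have h2 := wind_nonpos hx.2.1
  rw [wind_inv] at h2
  omega

lemma one_add_ne_zero {h : F0 C} (h1 : ‖h‖ < 1) : 1 + h ≠ 0 := by
  intro h2
  have h3 : h = -1 := by linear_combination h2
  rw [h3, norm_neg, norm_one] at h1
  exact lt_irrefl _ h1

/-- `P = t ^ d * u * v`, `u` a unit of `A2`, `v` a unit of `A1` with winding number `0`. -/
lemma poly_form {P : C[X]} (hP : P ≠ 0) : ∃ d : ℕ, ∃ u : F0 C, U2 u ∧ ∃ v ∈ A1 C,
    v⁻¹ ∈ A1 C ∧ v ≠ 0 ∧ wind C v = 0 ∧ aeval (tt C) P = (tt C) ^ d * u * v := by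
  obtain ⟨P₁, hP₁, -, hr, c, hc, h, hh, h1, hx⟩ :=
    weierstrass_A1 (aeval_tt_mem_A1 P) (aeval_tt_ne_zero hP)
  refine ⟨P₁.natDegree, aeval (tt C) P₁ * (tt C)⁻¹ ^ P₁.natDegree * algebraMap C (F0 C) c,
    (monic_unit hP₁ hr).mul (U2.const hc), 1 + h, (A1 C).add_mem (A1 C).one_mem hh,
    inv_mem_A1 ((A1 C).add_mem (A1 C).one_mem hh) (one_add_ne_zero h1) (wind_one_add h1),
    one_add_ne_zero h1, wind_one_add h1, ?_⟩
  rw [hx, inv_pow]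
  have := pow_ne_zero P₁.natDegree (tt_ne0 (C := C))
  field_simp

/-- roots of constants are constants -/
lemma const_of_pow {x : F0 C} {n : ℕ} (hn : n ≠ 0) {c : C} (hc : c ≠ 0)
    (h : x ^ n = algebraMap C (F0 C) c) : ∃ d : C, d ≠ 0 ∧ x = algebraMap C (F0 C) d := by
  have hint : IsIntegral C x := by
    refine IsIntegral.of_pow (Nat.pos_of_ne_zero hn) ?_
    rw [h]
    exact isIntegral_algebraMap
  have h1 : x ∈ (algebraMap C (F0 C)).range :=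
    minpoly.mem_range_of_degree_eq_one C x
      (IsAlgClosed.degree_eq_one_of_irreducible C (minpoly.irreducible hint))
  obtain ⟨d, hd⟩ := h1
  refine ⟨d, ?_, hd.symm⟩
  rintro rfl
  rw [map_zero] at hd
  rw [← hd, zero_pow hn] at h
  exact hc ((_root_.map_eq_zero _).1 h.symm)

lemma tt_pow_wind (d : ℕ) : wind C ((tt C) ^ d) = d := by
  rw [wind_pow tt_ne0, wind_tt, mul_one]

/-- **Roots of units of `A2` are units.** -/
theorem U2.of_pow {z : F0 C} (hz : z ∈ F2 C) {n : ℕ} (hn : n ≠ 0) (h : U2 (z ^ n)) : U2 z := by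
  have hz0 : z ≠ 0 := by
    rintro rfl
    exact h.2.2 (zero_pow hn)
  obtain ⟨g, hg, k, hk, hk1, hzk⟩ := (mem_F2_iff hz0).1 hz
  obtain ⟨d₁, u₁, hu₁, v₁, hv₁, hv₁', hv₁0, hwv₁, he₁⟩ := poly_form (RatFunc.num_ne_zero hg)
  obtain ⟨d₂, u₂, hu₂, v₂, hv₂, hv₂', hv₂0, hwv₂, he₂⟩ := poly_form (RatFunc.denom_ne_zero g)
  have hu : U2 (u₁ * u₂⁻¹ * (1 + k)) := (hu₁.mul hu₂.inv).mul (U2.one_add hk hk1)
  have hz2 : z = (tt C) ^ d₁ * ((tt C) ^ d₂)⁻¹ * (v₁ * v₂⁻¹) * (u₁ * u₂⁻¹ * (1 + k)) := by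
    rw [hzk, algebraMap_rat_eq, he₁, he₂]
    have := pow_ne_zero d₂ (tt_ne0 (C := C))
    have := hu₂.2.2
    field_simp
  have ht := tt_ne0 (C := C)
  have hA : (tt C) ^ d₁ * ((tt C) ^ d₂)⁻¹ ≠ 0 :=
    mul_ne_zero (pow_ne_zero _ ht) (inv_ne_zero (pow_ne_zero _ ht))
  have hv0 : v₁ * v₂⁻¹ ≠ 0 := mul_ne_zero hv₁0 (inv_ne_zero hv₂0)
  have hwv : wind C (v₁ * v₂⁻¹) = 0 := by
    rw [wind_mul hv₁0 (inv_ne_zero hv₂0), wind_inv, hwv₁, hwv₂]; rfl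
  have hwz : wind C z = (d₁ : ℤ) - d₂ := by
    rw [hz2, wind_mul (mul_ne_zero hA hv0) hu.2.2, hu.wind_eq, wind_mul hA hv0, hwv,
      wind_mul (pow_ne_zero _ ht) (inv_ne_zero (pow_ne_zero _ ht)), wind_inv, tt_pow_wind,
      tt_pow_wind]
    ring
  have hd : d₁ = d₂ := by
    have h1 := h.wind_eq
    rw [wind_pow hz0, hwz] at h1
    have h2 : ((n : ℤ)) ≠ 0 := by exact_mod_cast hn
    have h3 := (mul_eq_zero.1 h1).resolve_left h2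
    omega
  subst hd
  rw [mul_inv_cancel₀ (pow_ne_zero _ ht), one_mul] at hz2
  -- the `A1` part is a constant
  have h4 : U2 ((v₁ * v₂⁻¹) ^ n) := by
    have h5 : (v₁ * v₂⁻¹) ^ n = z ^ n * ((u₁ * u₂⁻¹ * (1 + k)) ^ n)⁻¹ := by
      have := pow_ne_zero n hu.2.2
      rw [hz2, mul_pow (v₁ * v₂⁻¹), mul_assoc, mul_inv_cancel₀ this, mul_one]
    rw [h5]
    exact h.mul (hu.pow n).inv
  obtain ⟨c, hc⟩ := exists_const_of_mem
    ((A1 C).pow_mem ((A1 C).mul_mem hv₁ hv₂') n) h4.1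
  have hc0 : c ≠ 0 := by
    rintro rfl
    rw [map_zero] at hc
    exact h4.2.2 hc
  obtain ⟨d, hd0, hd⟩ := const_of_pow hn hc0 hc
  rw [hz2, hd]
  exact (U2.const hd0).mul hu

/-! ## `sub2` -/

/-- value at infinity, total version -/
lemma mem_A2_of_sub {x : F0 C} (hx : x ∈ A2 C) :
    ∃ y ∈ A2 C, x = algebraMap C (F0 C) (evInf C ⟨x, hx⟩) + (tt C)⁻¹ * y := by
  have h1 : evInf C (⟨x, hx⟩ - algebraMap C (A2 C) (evInf C ⟨x, hx⟩)) = 0 := by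
    rw [map_sub, AlgHom.commutes]
    simp
  have h2 := (evInf_eq_zero_iff _).1 h1
  refine ⟨_, h2, ?_⟩
  have h3 : ((⟨x, hx⟩ - algebraMap C (A2 C) (evInf C ⟨x, hx⟩) : A2 C) : F0 C) =
    x - algebraMap C (F0 C) (evInf C ⟨x, hx⟩) := rfl
  rw [h3]
  have ht := tt_ne0 (C := C)
  field_simp
  ring

lemma evInf_inv_tt_mul {y : F0 C} (hy : y ∈ A2 C) (h : (tt C)⁻¹ * y ∈ A2 C) :
    evInf C ⟨(tt C)⁻¹ * y, h⟩ = 0 := by
  rw [evInf_eq_zero_iff]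
  have ht := tt_ne0 (C := C)
  have : tt C * ((tt C)⁻¹ * y) = y := by field_simp
  simpa [this] using hy

lemma evInf_eq_of {x y : F0 C} (hx : x ∈ A2 C) {a : C} (hy : y ∈ A2 C)
    (h : x = algebraMap C (F0 C) a + (tt C)⁻¹ * y) : evInf C ⟨x, hx⟩ = a := by
  have hy' : (tt C)⁻¹ * y ∈ A2 C := (A2 C).mul_mem inv_tt_mem_A2 hy
  have h1 : (⟨x, hx⟩ : A2 C) = algebraMap C (A2 C) a + ⟨(tt C)⁻¹ * y, hy'⟩ := by
    ext
    exact h
  rw [h1, map_add, AlgHom.commutes, evInf_inv_tt_mul hy]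
  simp

lemma coe_algebraMap_F2 (f : RatFunc C) :
    ((algebraMap (RatFunc C) (F2 C) f : F2 C) : F0 C) = algebraMap (RatFunc C) (F0 C) f := rfl

lemma sub2_tt (c : C) (hc : c ≠ 0) (h : 1 ≤ ‖c‖) :
    (sub2 c hc h ⟨tt C, tt_mem_F2⟩ : F0 C) = algebraMap C (F0 C) c * tt C := by
  have h1 : (⟨tt C, tt_mem_F2⟩ : F2 C) = algebraMap (RatFunc C) (F2 C) RatFunc.X := rfl
  rw [h1, sub2_algebraMap, scale_X, coe_algebraMap_F2, map_mul]
  rfl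

lemma sub2_const (c : C) (hc : c ≠ 0) (h : 1 ≤ ‖c‖) (a : C) :
    (sub2 c hc h ⟨algebraMap C (F0 C) a, mem_F2_of_A2 (const_mem_A2 a)⟩ : F0 C) =
      algebraMap C (F0 C) a := by
  have h1 : (⟨algebraMap C (F0 C) a, mem_F2_of_A2 (const_mem_A2 a)⟩ : F2 C) =
    algebraMap C (F2 C) a := rfl
  rw [h1, AlgHom.commutes]
  rfl

/-- the shape of `sub2` on `A2` -/
lemma sub2_A2 (c : C) (hc : c ≠ 0) (h : 1 ≤ ‖c‖) {x : F0 C} (hx : x ∈ A2 C) {y : F0 C}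
    (hy : y ∈ A2 C) {a : C} (hxy : x = algebraMap C (F0 C) a + (tt C)⁻¹ * y) :
    (sub2 c hc h ⟨x, mem_F2_of_A2 hx⟩ : F0 C) = algebraMap C (F0 C) a +
      (tt C)⁻¹ * (algebraMap C (F0 C) c⁻¹ * (sub2 c hc h ⟨y, mem_F2_of_A2 hy⟩ : F0 C)) := by
  have h1 : (⟨x, mem_F2_of_A2 hx⟩ : F2 C) = ⟨algebraMap C (F0 C) a, mem_F2_of_A2 (const_mem_A2 a)⟩ +
      ⟨tt C, tt_mem_F2⟩⁻¹ * ⟨y, mem_F2_of_A2 hy⟩ := by
    ext
    exact hxy
  rw [h1, map_add, map_mul, map_inv₀]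
  rw [IntermediateField.coe_add, IntermediateField.coe_mul, IntermediateField.coe_inv,
    sub2_const, sub2_tt, map_inv₀ (algebraMap C (F0 C)), mul_inv]
  ring

lemma evInf_sub2 (c : C) (hc : c ≠ 0) (h : 1 ≤ ‖c‖) {x : F0 C} (hx : x ∈ A2 C)
    (hx' : (sub2 c hc h ⟨x, mem_F2_of_A2 hx⟩ : F0 C) ∈ A2 C) :
    evInf C ⟨_, hx'⟩ = evInf C ⟨x, hx⟩ := by
  obtain ⟨y, hy, hxy⟩ := mem_A2_of_sub hx
  exact evInf_eq_of hx' ((A2 C).mul_mem (const_mem_A2 _) (sub2_mem_A2 c hc h ⟨y, mem_F2_of_A2 hy⟩ hy).1)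
    (sub2_A2 c hc h hx hy hxy)

lemma norm_sub2_le (c : C) (hc : c ≠ 0) (h : 1 ≤ ‖c‖) {x : F0 C} (hx : x ∈ A2 C)
    (h0 : evInf C ⟨x, hx⟩ = 0) :
    ‖(sub2 c hc h ⟨x, mem_F2_of_A2 hx⟩ : F0 C)‖ ≤ ‖c‖⁻¹ * ‖x‖ := by
  obtain ⟨y, hy, hxy⟩ := mem_A2_of_sub hx
  rw [sub2_A2 c hc h hx hy hxy, h0, map_zero, zero_add, norm_mul, norm_inv, norm_tt, inv_one,
    one_mul, norm_mul, norm_algebraMap_C, norm_inv]
  refine mul_le_mul_of_nonneg_left ?_ (inv_nonneg.2 (norm_nonneg _))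
  refine (sub2_mem_A2 c hc h ⟨y, mem_F2_of_A2 hy⟩ hy).2.trans (le_of_eq ?_)
  rw [h0, map_zero, zero_add] at hxy
  change ‖y‖ = ‖x‖
  conv_rhs => rw [hxy, norm_mul, norm_inv, norm_tt, inv_one, one_mul]

lemma U2.sub2 (c : C) (hc : c ≠ 0) (h : 1 ≤ ‖c‖) {x : F0 C} (hx : U2 x) :
    U2 (P025H373.sub2 c hc h ⟨x, hx.mem_F2⟩ : F0 C) := by
  refine ⟨(sub2_mem_A2 c hc h ⟨x, hx.mem_F2⟩ hx.1).1, ?_, ?_⟩
  · have h1 := (sub2_mem_A2 c hc h ⟨x⁻¹, hx.inv.mem_F2⟩ hx.2.1).1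
    have h2 : (⟨x⁻¹, hx.inv.mem_F2⟩ : F2 C) = ⟨x, hx.mem_F2⟩⁻¹ := by
      ext
      rfl
    rw [h2, map_inv₀] at h1
    exact h1
  · have h2 : (⟨x, hx.mem_F2⟩ : F2 C) ≠ 0 := by
      intro h3
      exact hx.2.2 (congrArg Subtype.val h3)
    intro h3
    exact (map_ne_zero (P025H373.sub2 c hc h)).2 h2 (Subtype.ext h3)

end

end P025H907
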