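import Vale.Agent.P025.R2.H907.Loc1

/-!
# G-LOCAL: the limit function of a `p`-power system
-/

open Polynomial P025H373 Filter Topology

set_option linter.unusedSectionVars false

universe u

namespace P025H907

noncomputable section

section Abstract

variable {A : Type*} [NormedField A] [IsUltrametricDist A]

lemma norm_one_add_le {k : A} (hk : ‖k‖ < 1) : ‖1 + k‖ = 1 := by
  have := IsUltrametricDist.norm_add_eq_max_of_norm_ne_norm (x := (1 : A)) (y := k)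
    (by rw [norm_one]; exact hk.ne')
  rw [this, norm_one, max_eq_left hk.le]

lemma norm_pow_sub_one_le1 {x : A} (hx : ‖x‖ ≤ 1) (n : ℕ) : ‖x ^ n - 1‖ ≤ ‖x - 1‖ := by
  rw [← geom_sum_mul, norm_mul]
  refine mul_le_of_le_one_left (norm_nonneg _) ?_
  refine IsUltrametricDist.norm_sum_le_of_forall_le_of_nonneg zero_le_one fun i _ => ?_
  rw [norm_pow]
  exact pow_le_one₀ (norm_nonneg _) hx

lemma norm_pow_prime_sub_one_le {x : A} (hx : ‖x‖ ≤ 1) (p : ℕ) :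
    ‖x ^ p - 1‖ ≤ max ‖(p : A)‖ ‖x - 1‖ * ‖x - 1‖ := by
  rw [← geom_sum_mul, norm_mul]
  refine mul_le_mul_of_nonneg_right ?_ (norm_nonneg _)
  have h1 : ∑ i ∈ Finset.range p, x ^ i = (p : A) + ∑ i ∈ Finset.range p, (x ^ i - 1) := by
    rw [Finset.sum_sub_distrib]
    simp
  rw [h1]
  refine (IsUltrametricDist.norm_add_le_max _ _).trans (max_le_max le_rfl ?_)
  refine IsUltrametricDist.norm_sum_le_of_forall_le_of_nonneg (norm_nonneg _) fun i _ => ?_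
  exact norm_pow_sub_one_le1 hx i

lemma norm_pow_pow_sub_one_le {x : A} (hx : ‖x‖ ≤ 1) (p : ℕ) {r : ℝ} (hp : ‖(p : A)‖ ≤ r)
    (hr : ‖x - 1‖ ≤ r) (hr1 : r ≤ 1) (j : ℕ) : ‖x ^ p ^ j - 1‖ ≤ r ^ j * ‖x - 1‖ := by
  have hr0 : 0 ≤ r := (norm_nonneg _).trans hr
  induction j with
  | zero => simp
  | succ j ih =>
    have hx' : ‖x ^ p ^ j‖ ≤ 1 := by
      rw [norm_pow]
      exact pow_le_one₀ (norm_nonneg _) hx
    have h1 := norm_pow_prime_sub_one_le hx' p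
    rw [← pow_mul, ← pow_succ] at h1
    refine h1.trans ?_
    have h2 : ‖x ^ p ^ j - 1‖ ≤ r := by
      refine ih.trans ?_
      calc r ^ j * ‖x - 1‖ ≤ 1 * r := by
            refine mul_le_mul (pow_le_one₀ hr0 hr1) hr (norm_nonneg _) zero_le_one
        _ = r := one_mul r
    calc max ‖(p : A)‖ ‖x ^ p ^ j - 1‖ * ‖x ^ p ^ j - 1‖ ≤ r * (r ^ j * ‖x - 1‖) :=
          mul_le_mul (max_le hp h2) ih (norm_nonneg _) hr0
      _ = r ^ (j + 1) * ‖x - 1‖ := by ring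

/-- products of one-units -/
lemma norm_prod_sub_one_le {r : ℝ} (hr1 : r < 1) (u : ℕ → A) (hu : ∀ j, ‖u j - 1‖ ≤ r) (n : ℕ) :
    ‖∏ j ∈ Finset.range n, u j - 1‖ ≤ r := by
  have hr0 : 0 ≤ r := (norm_nonneg _).trans (hu 0)
  induction n with
  | zero => simpa using hr0
  | succ n ih =>
    rw [Finset.prod_range_succ]
    have h1 : (∏ j ∈ Finset.range n, u j) * u n - 1 =
      (∏ j ∈ Finset.range n, u j - 1) * u n + (u n - 1) := by ring
    rw [h1]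
    refine (IsUltrametricDist.norm_add_le_max _ _).trans (max_le ?_ (hu n))
    have h2 : ‖u n‖ = 1 := by
      have := norm_one_add_le (k := u n - 1) ((hu n).trans_lt hr1)
      rwa [add_sub_cancel] at this
    rw [norm_mul, h2, mul_one]
    exact ih

/-- The infinite products `V_m = ∏_j u_{m+j} ^ (p ^ j)`. -/
theorem exists_inf_prod [CompleteSpace A] {p : ℕ} {r : ℝ} (hp : ‖(p : A)‖ ≤ r) (hr1 : r < 1)
    (u : ℕ → A) (hu : ∀ j, ‖u j - 1‖ ≤ r) : ∃ V : ℕ → A,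
      (∀ m, Tendsto (fun n => ∏ j ∈ Finset.range n, u (m + j) ^ p ^ j) atTop (𝓝 (V m))) ∧
      (∀ m, ‖V m - 1‖ ≤ r) ∧ ∀ m, V m = u m * V (m + 1) ^ p := by
  have hr0 : 0 ≤ r := (norm_nonneg _).trans hp
  have hu1 : ∀ j, ‖u j‖ = 1 := fun j => by
    have := norm_one_add_le (k := u j - 1) ((hu j).trans_lt hr1)
    rwa [add_sub_cancel] at this
  have hu2 : ∀ m j, ‖u (m + j) ^ p ^ j - 1‖ ≤ r := fun m j =>
    (norm_pow_sub_one_le1 (hu1 _).le _).trans (hu _)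
  have hP : ∀ m n, ‖∏ j ∈ Finset.range n, u (m + j) ^ p ^ j - 1‖ ≤ r := fun m n =>
    norm_prod_sub_one_le hr1 (fun j => u (m + j) ^ p ^ j) (hu2 m) n
  have hc : ∀ m, CauchySeq (fun n => ∏ j ∈ Finset.range n, u (m + j) ^ p ^ j) := by
    intro m
    refine cauchySeq_of_le_geometric r 1 hr1 (fun n => ?_)
    rw [dist_comm, dist_eq_norm, Finset.prod_range_succ]
    have h1 : (∏ j ∈ Finset.range n, u (m + j) ^ p ^ j) * u (m + n) ^ p ^ n -
        ∏ j ∈ Finset.range n, u (m + j) ^ p ^ j =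
        (∏ j ∈ Finset.range n, u (m + j) ^ p ^ j) * (u (m + n) ^ p ^ n - 1) := by ring
    rw [h1, norm_mul]
    have h2 : ‖∏ j ∈ Finset.range n, u (m + j) ^ p ^ j‖ = 1 := by
      rw [norm_prod]
      refine Finset.prod_eq_one (fun j _ => ?_)
      rw [norm_pow, hu1, one_pow]
    rw [h2, one_mul, one_mul]
    refine (norm_pow_pow_sub_one_le (hu1 _).le p hp (hu _) hr1.le n).trans ?_
    calc r ^ n * ‖u (m + n) - 1‖ ≤ r ^ n * 1 :=
          mul_le_mul_of_nonneg_left ((hu _).trans hr1.le) (pow_nonneg hr0 n)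
      _ = r ^ n := mul_one _
  choose V hV using fun m => cauchySeq_tendsto_of_complete (hc m)
  refine ⟨V, hV, fun m => ?_, fun m => ?_⟩
  · refine le_of_tendsto ((hV m).sub_const 1).norm (Eventually.of_forall (hP m))
  · have h1 := (hV m).comp (tendsto_add_atTop_nat 1)
    have h2 : Tendsto (fun n => u m * (∏ j ∈ Finset.range n, u (m + 1 + j) ^ p ^ j) ^ p) atTop
        (𝓝 (u m * V (m + 1) ^ p)) := ((hV (m + 1)).pow p).const_mul _
    refine tendsto_nhds_unique (h1.congr (fun n => ?_)) h2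
    simp only [Function.comp_apply]
    rw [Finset.prod_range_succ', ← Finset.prod_pow]
    simp only [pow_zero, pow_one, add_zero]
    rw [mul_comm]
    congr 1
    refine Finset.prod_congr rfl (fun j _ => ?_)
    rw [← pow_mul, ← pow_succ, add_assoc, add_comm 1 j]

end Abstract

variable {C : Type u} [NontriviallyNormedField C] [IsUltrametricDist C] [CompleteSpace C]
  [IsAlgClosed C]

lemma evInf_pow {x : F0 C} (hx : x ∈ A2 C) (n : ℕ) (hx' : x ^ n ∈ A2 C) :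
    evInf C ⟨x ^ n, hx'⟩ = evInf C ⟨x, hx⟩ ^ n := by
  rw [← map_pow]
  rfl

lemma evInf_mul {x y : F0 C} (hx : x ∈ A2 C) (hy : y ∈ A2 C) (hxy : x * y ∈ A2 C) :
    evInf C ⟨x * y, hxy⟩ = evInf C ⟨x, hx⟩ * evInf C ⟨y, hy⟩ := by
  rw [← map_mul]
  rfl

lemma evInf_congr {x y : F0 C} (hx : x ∈ A2 C) (hxy : x = y) :
    evInf C ⟨x, hx⟩ = evInf C ⟨y, hxy ▸ hx⟩ := by
  subst hxy
  rfl

lemma evInf_const (a : C) : evInf C ⟨algebraMap C (F0 C) a, const_mem_A2 a⟩ = a := by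
  have h1 : (⟨algebraMap C (F0 C) a, const_mem_A2 a⟩ : A2 C) = algebraMap C (A2 C) a := rfl
  rw [h1, AlgHom.commutes]
  rfl

/-- normalised form of divisibility -/
lemma DivOn.norm_form {n : ℕ} (hn : n ≠ 0) {x : F0 C} (hx : DivOn n x) :
    ∃ g ∈ F2 C, g ≠ 0 ∧ ∃ w, ∃ hw : U2 w, evInf C ⟨w, hw.1⟩ = 1 ∧ x = g ^ n * w := by
  obtain ⟨g, hg, hg0, w, hw, hx⟩ := hx
  obtain ⟨a, ha⟩ := IsAlgClosed.exists_pow_nat_eq (evInf C ⟨w, hw.1⟩) (Nat.pos_of_ne_zero hn)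
  have ha0 : a ≠ 0 := by
    rintro rfl
    rw [zero_pow hn] at ha
    exact hw.evInf_ne ha.symm
  have haF : algebraMap C (F0 C) a ≠ 0 := (_root_.map_ne_zero (algebraMap C (F0 C))).2 ha0
  have hw' : U2 (w * (algebraMap C (F0 C) a⁻¹) ^ n) :=
    hw.mul ((U2.const (inv_ne_zero ha0)).pow n)
  refine ⟨g * algebraMap C (F0 C) a, (F2 C).mul_mem hg (mem_F2_of_A2 (const_mem_A2 a)),
    mul_ne_zero hg0 haF, w * (algebraMap C (F0 C) a⁻¹) ^ n, hw', ?_, ?_⟩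
  · rw [evInf_mul hw.1 ((A2 C).pow_mem (const_mem_A2 _) n), evInf_pow (const_mem_A2 _), evInf_const,
      ← ha, ← mul_pow, mul_inv_cancel₀ ha0, one_pow]
  · rw [hx, map_inv₀, mul_pow, inv_pow]
    have := pow_ne_zero n haF
    field_simp

/-- **L1.** -/
theorem exists_limit {p : ℕ} (hp : p.Prime) (hpC : ‖(p : C)‖ < 1) (x y : ℕ → F0 C)
    (hx : ∀ m, DivOn (p ^ m) (x m)) (hy : ∀ m, y m ∈ F2 C ∧ y m ≠ 0)
    (hxy : ∀ m, x (m + 1) = x m * y m ^ p ^ m) (hx2 : ∀ m, x m ∈ F2 C) (c : C) (hc : 1 < ‖c‖) :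
    ∃ X : F0 C, ∃ hX : X ∈ A2 C, ‖X - 1‖ < 1 ∧ evInf C ⟨X, hX⟩ = 1 ∧
      ∀ m, ∃ v : F2 C, v ≠ 0 ∧
        (sub2 c (by rintro rfl; simp at hc; linarith) hc.le ⟨x m, hx2 m⟩ : F0 C) =
          X * (v : F0 C) ^ p ^ m := by
  have hc0 : c ≠ 0 := by rintro rfl; simp at hc; linarith
  have hpm : ∀ m, p ^ m ≠ 0 := fun m => pow_ne_zero m hp.ne_zero
  choose g hg hg0 w hw hw1 hxw using fun m => (hx m).norm_form (hpm m)
  -- the transition functions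
  have hz : ∀ m, ∃ z : F0 C, ∃ hz : U2 z, evInf C ⟨z, hz.1⟩ = 1 ∧ w (m + 1) = w m * z ^ p ^ m := by
    intro m
    set z : F0 C := g m * y m * (g (m + 1) ^ p)⁻¹ with hzdef
    have hzF : z ∈ F2 C := (F2 C).mul_mem ((F2 C).mul_mem (hg m) (hy m).1)
      ((F2 C).inv_mem ((F2 C).pow_mem (hg (m + 1)) p))
    have h1 : w (m + 1) = w m * z ^ p ^ m := by
      have h2 := hxy m
      rw [hxw, hxw] at h2
      have h3 : g (m + 1) ^ p ^ (m + 1) ≠ 0 := pow_ne_zero _ (hg0 _)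
      refine mul_left_cancel₀ h3 ?_
      rw [h2, hzdef, mul_pow, mul_pow, inv_pow, ← pow_mul, ← pow_succ' p m]
      field_simp
    have h2 : z ^ p ^ m = w (m + 1) * (w m)⁻¹ := by
      rw [h1]
      have := (hw m).2.2
      field_simp
    have hzp : U2 (z ^ p ^ m) := by
      rw [h2]
      exact (hw _).mul (hw _).inv
    have hzU : U2 z := U2.of_pow hzF (hpm m) hzp
    set a := evInf C ⟨z, hzU.1⟩ with ha
    have ha0 : a ≠ 0 := hzU.evInf_ne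
    have ha1 : a ^ p ^ m = 1 := by
      rw [ha, ← evInf_pow hzU.1 _ hzp.1]
      have h3 : evInf C ⟨w (m + 1), (hw (m + 1)).1⟩ =
          evInf C ⟨w m, (hw m).1⟩ * evInf C ⟨z ^ p ^ m, hzp.1⟩ := by
        rw [← evInf_mul (hw m).1 hzp.1 ((A2 C).mul_mem (hw m).1 hzp.1)]
        exact evInf_congr _ h1
      rw [hw1, hw1, one_mul] at h3
      exact h3.symm
    refine ⟨z * algebraMap C (F0 C) a⁻¹, hzU.mul (U2.const (inv_ne_zero ha0)), ?_, ?_⟩
    · rw [evInf_mul hzU.1 (const_mem_A2 _), evInf_const, ← ha, mul_inv_cancel₀ ha0]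
    · rw [mul_pow, ← map_pow, inv_pow, ha1, inv_one, map_one, mul_one]
      exact h1
  choose z hzU hz1 hwz using hz
  -- restriction
  set S : F2 C → F0 C := fun a => (sub2 c hc0 hc.le a : F0 C) with hS
  have hone : ∀ (a : F0 C) (ha : U2 a), evInf C ⟨a, ha.1⟩ = 1 →
      ‖S ⟨a, ha.mem_F2⟩ - 1‖ ≤ ‖c‖⁻¹ := by
    intro a ha ha1
    have h1 : evInf C ⟨a - 1, (A2 C).sub_mem ha.1 (A2 C).one_mem⟩ = 0 := by
      have h2 : (⟨a - 1, (A2 C).sub_mem ha.1 (A2 C).one_mem⟩ : A2 C) = ⟨a, ha.1⟩ - 1 := rfl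
      rw [h2, map_sub, ha1, map_one, sub_self]
    have h2 := norm_sub2_le c hc0 hc.le _ h1
    have h3 : (sub2 c hc0 hc.le ⟨a - 1, mem_F2_of_A2 ((A2 C).sub_mem ha.1 (A2 C).one_mem)⟩ : F0 C) =
        S ⟨a, ha.mem_F2⟩ - 1 := by
      have h4 : (⟨a - 1, mem_F2_of_A2 ((A2 C).sub_mem ha.1 (A2 C).one_mem)⟩ : F2 C) =
        ⟨a, ha.mem_F2⟩ - 1 := rfl
      rw [h4, map_sub, map_one]
      rfl
    rw [h3] at h2
    refine h2.trans (mul_le_of_le_one_right (inv_nonneg.2 (norm_nonneg _)) ?_)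
    refine (sub_eq_add_neg a 1 ▸ IsUltrametricDist.norm_add_le_max a (-1)).trans ?_
    rw [ha.norm_eq, ha1, norm_neg, norm_one, norm_one, max_self]
  set r : ℝ := max ‖(p : C)‖ ‖c‖⁻¹ with hr
  have hr1 : r < 1 := max_lt hpC (inv_lt_one_of_one_lt₀ hc)
  have hpF : ‖(p : F0 C)‖ ≤ r := by
    have : (p : F0 C) = algebraMap C (F0 C) (p : C) := by simp
    rw [this, norm_algebraMap_C]
    exact le_max_left _ _
  have hSmul : ∀ a b : F2 C, S (a * b) = S a * S b := fun a b => by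
    rw [hS]; simp only [map_mul]; rfl
  have hSpow : ∀ (a : F2 C) (n : ℕ), S (a ^ n) = S a ^ n := fun a n => by
    rw [hS]; simp only [map_pow]; rfl
  obtain ⟨V, hV, hV1, hVm⟩ := exists_inf_prod hpF hr1 (fun m => S ⟨z m, (hzU m).mem_F2⟩)
    (fun m => (hone _ (hzU m) (hz1 m)).trans (le_max_right _ _))
  have hzS : ∀ m, U2 (S ⟨z m, (hzU m).mem_F2⟩) := fun m => (hzU m).sub2 c hc0 hc.le
  have hVA : ∀ m, V m ∈ A2 C := fun m =>
    isClosed_A2.mem_of_tendsto (hV m) (Eventually.of_forall fun n =>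
      (A2 C).prod_mem fun j _ => (A2 C).pow_mem (hzS _).1 _)
  have hVne : ∀ m, V m ≠ 0 := by
    intro m h
    have := hV1 m
    rw [h, zero_sub, norm_neg, norm_one] at this
    linarith
  have hwS : ∀ m, S ⟨w (m + 1), (hw (m + 1)).mem_F2⟩ =
      S ⟨w m, (hw m).mem_F2⟩ * S ⟨z m, (hzU m).mem_F2⟩ ^ p ^ m := by
    intro m
    rw [← hSpow, ← hSmul]
    congr 1
    ext
    exact hwz m
  have hX : ∀ m, S ⟨w 0, (hw 0).mem_F2⟩ * V 0 = S ⟨w m, (hw m).mem_F2⟩ * V m ^ p ^ m := by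
    intro m
    induction m with
    | zero => simp
    | succ m ih =>
      rw [ih, hVm m, hwS, mul_pow, ← pow_mul, ← pow_succ', mul_assoc]
  have hwA : (S ⟨w 0, (hw 0).mem_F2⟩) ∈ A2 C := ((hw 0).sub2 c hc0 hc.le).1
  have hXA : S ⟨w 0, (hw 0).mem_F2⟩ * V 0 ∈ A2 C := (A2 C).mul_mem hwA (hVA 0)
  have hw0 : ‖S ⟨w 0, (hw 0).mem_F2⟩ - 1‖ < 1 :=
    (hone _ (hw 0) (hw1 0)).trans_lt (inv_lt_one_of_one_lt₀ hc)
  refine ⟨_, hXA, ?_, ?_, fun m => ?_⟩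
  · have h1 : S ⟨w 0, (hw 0).mem_F2⟩ * V 0 - 1 =
        S ⟨w 0, (hw 0).mem_F2⟩ * (V 0 - 1) + (S ⟨w 0, (hw 0).mem_F2⟩ - 1) := by ring
    rw [h1]
    refine (IsUltrametricDist.norm_add_le_max _ _).trans_lt (max_lt ?_ hw0)
    have h2 : ‖S ⟨w 0, (hw 0).mem_F2⟩‖ = 1 := by
      have := norm_one_add_le (k := S ⟨w 0, (hw 0).mem_F2⟩ - 1) hw0
      rwa [add_sub_cancel] at this
    rw [norm_mul, h2, one_mul]
    exact (hV1 0).trans_lt hr1
  · rw [evInf_mul hwA (hVA 0)]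
    have h1 : evInf C ⟨S ⟨w 0, (hw 0).mem_F2⟩, hwA⟩ = 1 :=
      (evInf_sub2 c hc0 hc.le (hw 0).1 hwA).trans (hw1 0)
    rw [h1, one_mul]
    -- continuity
    have h2 : ∀ n, ∏ j ∈ Finset.range n, S ⟨z (0 + j), (hzU (0 + j)).mem_F2⟩ ^ p ^ j ∈ A2 C :=
      fun n => (A2 C).prod_mem fun j _ => (A2 C).pow_mem (hzS _).1 _
    have h3 : ∀ n, evInf C ⟨_, h2 n⟩ = 1 := by
      intro n
      induction n with
      | zero =>
        have : (⟨_, h2 0⟩ : A2 C) = 1 := by ext; simp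
        rw [this, map_one]
      | succ n ih =>
        have h4 : (⟨_, h2 (n + 1)⟩ : A2 C) = ⟨_, h2 n⟩ * ⟨_, (hzS (0 + n)).1⟩ ^ p ^ n := by
          ext
          exact Finset.prod_range_succ _ _
        rw [h4, map_mul, ih, one_mul, map_pow, evInf_sub2 c hc0 hc.le (hzU _).1, hz1, one_pow]
    have h4 : ∀ n, ‖evInf C ⟨V 0, hVA 0⟩ - 1‖ ≤
        ‖V 0 - ∏ j ∈ Finset.range n, S ⟨z (0 + j), (hzU (0 + j)).mem_F2⟩ ^ p ^ j‖ := by
      intro n
      rw [← h3 n, ← map_sub]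
      exact norm_evInf_le _
    have h5 : Tendsto (fun n => ‖V 0 -
        ∏ j ∈ Finset.range n, S ⟨z (0 + j), (hzU (0 + j)).mem_F2⟩ ^ p ^ j‖) atTop (𝓝 0) := by
      have := ((hV 0).const_sub (V 0)).norm
      simpa using this
    have h6 : ‖evInf C ⟨V 0, hVA 0⟩ - 1‖ ≤ 0 := ge_of_tendsto' h5 h4
    exact sub_eq_zero.1 (norm_le_zero_iff.1 h6)
  · have hVF : (V m)⁻¹ ∈ F2 C := (F2 C).inv_mem (mem_F2_of_A2 (hVA m))
    refine ⟨sub2 c hc0 hc.le ⟨g m, hg m⟩ * ⟨(V m)⁻¹, hVF⟩, ?_, ?_⟩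
    · refine mul_ne_zero ?_ ?_
      · refine (map_ne_zero (sub2 c hc0 hc.le)).2 ?_
        intro h3
        exact hg0 m (congrArg Subtype.val h3)
      · intro h3
        exact inv_ne_zero (hVne m) (congrArg Subtype.val h3)
    · have h1 : (⟨x m, hx2 m⟩ : F2 C) = ⟨g m, hg m⟩ ^ p ^ m * ⟨w m, (hw m).mem_F2⟩ := by
        ext
        exact hxw m
      have h2 : S ⟨x m, hx2 m⟩ = S ⟨g m, hg m⟩ ^ p ^ m * S ⟨w m, (hw m).mem_F2⟩ := by
        rw [h1, hSmul, hSpow]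
      change S ⟨x m, hx2 m⟩ = _ * (S ⟨g m, hg m⟩ * (V m)⁻¹) ^ p ^ m
      rw [h2, hX m, mul_pow, inv_pow]
      have := pow_ne_zero (p ^ m) (hVne m)
      field_simp

end

end P025H907
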