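import Vale.Agent.P025.R2.H907.Loc2

/-!
# G-LOCAL: change of coordinate
-/

open Polynomial P025H373 Filter Topology

set_option linter.unusedSectionVars false

universe u

namespace P025H907

noncomputable section

variable {C : Type u} [NontriviallyNormedField C] [IsUltrametricDist C] [CompleteSpace C]
  [IsAlgClosed C]

lemma norm_aeval_tt (P : C[X]) : ‖aeval (tt C) P‖ = gp P := by
  rw [← gauss_poly, ← P025H373.norm_algebraMap, algebraMap_poly_eq]
  rfl

section Sigma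

variable (σ : F0 C) (hσ : ‖σ - tt C‖ < 1)

include hσ

lemma norm_sigma : ‖σ‖ = 1 := by
  have h := IsUltrametricDist.norm_add_eq_max_of_norm_ne_norm (x := σ - tt C) (y := tt C)
    (by rw [norm_tt]; exact hσ.ne)
  rwa [sub_add_cancel, norm_tt, max_eq_right hσ.le] at h

lemma norm_pow_sub_pow_le (n : ℕ) : ‖σ ^ n - (tt C) ^ n‖ ≤ ‖σ - tt C‖ := by
  induction n with
  | zero => simp
  | succ n ih =>
    have h1 : σ ^ (n + 1) - (tt C) ^ (n + 1) = σ ^ n * (σ - tt C) + (σ ^ n - (tt C) ^ n) * tt C := by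
      ring
    rw [h1]
    refine (IsUltrametricDist.norm_add_le_max _ _).trans (max_le ?_ ?_)
    · rw [norm_mul, norm_pow, norm_sigma σ hσ, one_pow, one_mul]
    · rw [norm_mul, norm_tt, mul_one]
      exact ih

lemma norm_aeval_sub_le (P : C[X]) :
    ‖aeval σ P - aeval (tt C) P‖ ≤ ‖σ - tt C‖ * ‖aeval (tt C) P‖ := by
  rw [aeval_eq_sum_range, aeval_eq_sum_range, ← Finset.sum_sub_distrib, ← aeval_eq_sum_range]
  refine IsUltrametricDist.norm_sum_le_of_forall_le_of_nonneg (by positivity) fun i _ => ?_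
  rw [← smul_sub, norm_smul, mul_comm]
  exact mul_le_mul (norm_pow_sub_pow_le σ hσ i) (by rw [norm_aeval_tt]; exact norm_coeff_le P i)
    (norm_nonneg _) (norm_nonneg _)

lemma norm_aeval_sigma (P : C[X]) : ‖aeval σ P‖ = ‖aeval (tt C) P‖ := by
  rcases eq_or_ne P 0 with rfl | hP
  · simp
  have h0 : 0 < ‖aeval (tt C) P‖ := norm_pos_iff.2 (aeval_tt_ne_zero hP)
  have h1 : ‖aeval σ P - aeval (tt C) P‖ < ‖aeval (tt C) P‖ :=
    (norm_aeval_sub_le σ hσ P).trans_lt (mul_lt_of_lt_one_left h0 hσ)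
  have h := IsUltrametricDist.norm_add_eq_max_of_norm_ne_norm (x := aeval σ P - aeval (tt C) P)
    (y := aeval (tt C) P) h1.ne
  rwa [sub_add_cancel, max_eq_right h1.le] at h

lemma aeval_sigma_ne_zero {P : C[X]} (hP : P ≠ 0) : aeval σ P ≠ 0 := by
  rw [← norm_ne_zero_iff, norm_aeval_sigma σ hσ, norm_ne_zero_iff]
  exact aeval_tt_ne_zero hP

omit hσ in
/-- evaluation of rational functions at `σ` -/
def evS (hσ : ‖σ - tt C‖ < 1) : RatFunc C →ₐ[C] F0 C :=
  RatFunc.liftAlgHom (aeval σ) (by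
    intro P hP
    rw [Submonoid.mem_comap, mem_nonZeroDivisors_iff_ne_zero]
    exact aeval_sigma_ne_zero σ hσ (nonZeroDivisors.ne_zero hP))

lemma evS_div (P Q : C[X]) : evS σ hσ (algebraMap _ _ P / algebraMap _ _ Q) =
    aeval σ P / aeval σ Q := by
  rw [evS, RatFunc.liftAlgHom_apply_div]

lemma algebraMap_div_eq (P Q : C[X]) : algebraMap (RatFunc C) (F0 C)
    (algebraMap _ _ P / algebraMap _ _ Q) = aeval (tt C) P / aeval (tt C) Q := by
  rw [map_div₀, algebraMap_poly_eq, algebraMap_poly_eq]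
  rfl

lemma norm_evS (f : RatFunc C) : ‖evS σ hσ f‖ = ‖algebraMap (RatFunc C) (F0 C) f‖ := by
  rw [← f.num_div_denom, evS_div, algebraMap_div_eq σ hσ, norm_div, norm_div,
    norm_aeval_sigma σ hσ, norm_aeval_sigma σ hσ]

lemma norm_evS_sub_le (f : RatFunc C) : ‖evS σ hσ f - algebraMap (RatFunc C) (F0 C) f‖ ≤
    ‖σ - tt C‖ * ‖algebraMap (RatFunc C) (F0 C) f‖ := by
  rw [← f.num_div_denom, evS_div, algebraMap_div_eq σ hσ]
  have hQ := aeval_sigma_ne_zero σ hσ f.denom_ne_zero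
  have hQ' := aeval_tt_ne_zero f.denom_ne_zero
  rw [div_sub_div _ _ hQ hQ', norm_div, norm_div, norm_mul, norm_aeval_sigma σ hσ, ← mul_div_assoc,
    ← div_div, div_le_div_iff_of_pos_right (norm_pos_iff.2 hQ'),
    div_le_iff₀ (norm_pos_iff.2 hQ')]
  have h1 : aeval σ f.num * aeval (tt C) f.denom - aeval σ f.denom * aeval (tt C) f.num =
      (aeval σ f.num - aeval (tt C) f.num) * aeval (tt C) f.denom -
      (aeval σ f.denom - aeval (tt C) f.denom) * aeval (tt C) f.num := by ring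
  rw [h1, sub_eq_add_neg]
  refine (IsUltrametricDist.norm_add_le_max _ _).trans (max_le ?_ ?_)
  · rw [norm_mul]
    exact mul_le_mul_of_nonneg_right (norm_aeval_sub_le σ hσ _) (norm_nonneg _)
  · rw [norm_neg, norm_mul]
    calc ‖aeval σ f.denom - aeval (tt C) f.denom‖ * ‖aeval (tt C) f.num‖
        ≤ (‖σ - tt C‖ * ‖aeval (tt C) f.denom‖) * ‖aeval (tt C) f.num‖ :=
          mul_le_mul_of_nonneg_right (norm_aeval_sub_le σ hσ _) (norm_nonneg _)
      _ = ‖σ - tt C‖ * ‖aeval (tt C) f.num‖ * ‖aeval (tt C) f.denom‖ := by ring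

end Sigma

/-- Neumann series: an additive map close to the identity is onto on closed subgroups. -/
lemma surj_of_close (E : AddSubgroup (F0 C)) (hE : IsClosed (E : Set (F0 C)))
    (α : F0 C →+ F0 C) (hα : ∀ x, ‖α x‖ = ‖x‖) {η : ℝ} (hη : η < 1)
    (h : ∀ x, ‖α x - x‖ ≤ η * ‖x‖) (hEα : ∀ x ∈ E, α x ∈ E) {y : F0 C} (hy : y ∈ E) :
    ∃ x ∈ E, α x = y := by
  have hη0 : 0 ≤ η := by
    have := h 1
    rw [norm_one, mul_one] at this
    exact (norm_nonneg _).trans this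
  let r : ℕ → F0 C := fun n => (fun z => z - α z)^[n] y
  have hr : ∀ n, r (n + 1) = r n - α (r n) := fun n => Function.iterate_succ_apply' _ _ _
  have hrE : ∀ n, r n ∈ E := by
    intro n
    induction n with
    | zero => exact hy
    | succ n ih =>
      rw [hr]
      exact E.sub_mem ih (hEα _ ih)
  have hrn : ∀ n, ‖r n‖ ≤ η ^ n * ‖y‖ := by
    intro n
    induction n with
    | zero => simp [r]
    | succ n ih =>
      rw [hr, ← norm_neg, neg_sub]
      refine (h _).trans ?_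
      calc η * ‖r n‖ ≤ η * (η ^ n * ‖y‖) := mul_le_mul_of_nonneg_left ih hη0
        _ = η ^ (n + 1) * ‖y‖ := by ring
  let s : ℕ → F0 C := fun n => ∑ i ∈ Finset.range n, r i
  have hs : ∀ n, α (s n) = y - r n := by
    intro n
    induction n with
    | zero => simp [s, r]
    | succ n ih =>
      have h1 : s (n + 1) = s n + r n := Finset.sum_range_succ _ _
      rw [h1, map_add, ih, hr]
      abel
  have hc : CauchySeq s := by
    refine cauchySeq_of_le_geometric η ‖y‖ hη (fun n => ?_)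
    have h1 : s (n + 1) = s n + r n := Finset.sum_range_succ _ _
    rw [dist_comm, dist_eq_norm, h1, add_sub_cancel_left, mul_comm]
    exact hrn n
  obtain ⟨x, hx⟩ := cauchySeq_tendsto_of_complete hc
  have hαc : Continuous α :=
    AddMonoidHomClass.continuous_of_bound α 1 (fun x => by rw [hα, one_mul])
  have h0 : Tendsto r atTop (𝓝 0) := by
    refine squeeze_zero_norm hrn ?_
    have := (tendsto_pow_atTop_nhds_zero_of_lt_one hη0 hη).mul_const ‖y‖
    simpa using this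
  refine ⟨x, hE.mem_of_tendsto hx (Eventually.of_forall fun n => E.sum_mem fun i _ => hrE i), ?_⟩
  refine tendsto_nhds_unique ((hαc.tendsto x).comp hx) ?_
  have h2 : Tendsto (fun n => y - r n) atTop (𝓝 (y - 0)) := h0.const_sub y
  rw [sub_zero] at h2
  exact h2.congr (fun n => (hs n).symm)

section Aut

variable (σ : F0 C) (hσ : ‖σ - tt C‖ < 1)

/-- the ring homomorphism on the dense subfield -/
def evR : WithAbs (gauss C) →+* F0 C :=
  (evS σ hσ : RatFunc C →+* F0 C).comp (WithAbs.equiv (gauss C) : WithAbs (gauss C) →+* RatFunc C)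

lemma continuous_evR : Continuous (evR σ hσ) := by
  refine AddMonoidHomClass.continuous_of_bound (evR σ hσ) 1 (fun x => ?_)
  rw [one_mul]
  change ‖evS σ hσ (WithAbs.equiv (gauss C) x)‖ ≤ ‖x‖
  rw [norm_evS, P025H373.norm_algebraMap]
  exact le_of_eq rfl

/-- `x ↦ x(σ)` on `F0` -/
def autR : F0 C →+* F0 C :=
  UniformSpace.Completion.extensionHom (α := WithAbs (gauss C)) (β := F0 C) (evR σ hσ)
    (continuous_evR σ hσ)

lemma autR_algebraMap (f : RatFunc C) :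
    autR σ hσ (algebraMap (RatFunc C) (F0 C) f) = evS σ hσ f :=
  UniformSpace.Completion.extensionHom_coe (evR σ hσ) (continuous_evR σ hσ)
    (WithAbs.toAbs (gauss C) f)

lemma continuous_autR : Continuous (autR σ hσ) :=
  UniformSpace.Completion.continuous_extension

lemma norm_autR (x : F0 C) : ‖autR σ hσ x‖ = ‖x‖ := by
  refine denseRange_algebraMap.induction_on (p := fun x : F0 C => ‖autR σ hσ x‖ = ‖x‖) x ?_ ?_
  · exact isClosed_eq (continuous_autR σ hσ).norm continuous_norm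
  · intro f
    rw [autR_algebraMap, norm_evS]

lemma norm_autR_sub_le (x : F0 C) : ‖autR σ hσ x - x‖ ≤ ‖σ - tt C‖ * ‖x‖ := by
  refine denseRange_algebraMap.induction_on
    (p := fun x : F0 C => ‖autR σ hσ x - x‖ ≤ ‖σ - tt C‖ * ‖x‖) x ?_ ?_
  · exact isClosed_le ((continuous_autR σ hσ).sub continuous_id).norm
      (continuous_const.mul continuous_norm)
  · intro f
    rw [autR_algebraMap]
    exact norm_evS_sub_le σ hσ f

lemma autR_tt : autR σ hσ (tt C) = σ := by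
  have h1 : autR σ hσ (tt C) = evS σ hσ RatFunc.X := autR_algebraMap σ hσ RatFunc.X
  rw [h1, ← RatFunc.algebraMap_X]
  have h2 := evS_div σ hσ X 1
  rw [map_one, div_one, aeval_X, map_one, div_one] at h2
  exact h2

lemma autR_const (a : C) : autR σ hσ (algebraMap C (F0 C) a) = algebraMap C (F0 C) a := by
  rw [algebraMap_C_eq, autR_algebraMap]
  exact (evS σ hσ).commutes a

lemma autR_aeval (P : C[X]) : autR σ hσ (aeval (tt C) P) = aeval σ P := by
  rw [aeval_eq_sum_range, aeval_eq_sum_range, map_sum]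
  refine Finset.sum_congr rfl (fun i _ => ?_)
  rw [Algebra.smul_def, Algebra.smul_def, map_mul, map_pow, autR_const, autR_tt]

include hσ in
lemma wind_aeval_sigma {P : C[X]} (hP : P ≠ 0) : wind C (aeval σ P) = wind C (aeval (tt C) P) := by
  refine wind_eq_of_norm_sub_lt ?_
  exact (norm_aeval_sub_le σ hσ P).trans_lt
    (mul_lt_of_lt_one_left (norm_pos_iff.2 (aeval_tt_ne_zero hP)) hσ)

include hσ in
lemma wind_sigma : wind C σ = 1 := by
  rw [← wind_tt (C := C)]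
  refine wind_eq_of_norm_sub_lt ?_
  rw [norm_tt]
  exact hσ

include hσ in
lemma inv_sigma_pow_mul_aeval_mem (hσ2 : σ⁻¹ ∈ A2 C) {P : C[X]} {d : ℕ} (hd : P.natDegree ≤ d) :
    σ⁻¹ ^ d * aeval σ P ∈ A2 C := by
  have h0 : σ ≠ 0 := by
    rw [← norm_ne_zero_iff, norm_sigma σ hσ]
    exact one_ne_zero
  rw [aeval_eq_sum_range, Finset.mul_sum]
  refine (A2 C).sum_mem (fun i hi => ?_)
  have hi' : i ≤ d := le_trans (by simpa [Nat.lt_succ_iff] using hi) hd
  have h2 : σ⁻¹ ^ d * P.coeff i • σ ^ i = algebraMap C (F0 C) (P.coeff i) * σ⁻¹ ^ (d - i) := by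
    rw [Algebra.smul_def, inv_pow, inv_pow, pow_sub₀ _ h0 hi']
    field_simp
  rw [h2]
  exact (A2 C).mul_mem (const_mem_A2 _) ((A2 C).pow_mem hσ2 _)

lemma roots_le_of_monic {S : C[X]} (hS : S.Monic) (h1 : ∀ i, ‖S.coeff i‖ ≤ 1) :
    ∀ a ∈ S.roots, ‖a‖ ≤ 1 := by
  intro a ha
  by_contra hlt
  rw [not_le] at hlt
  have hroot : S.eval a = 0 := (mem_roots'.1 ha).2
  rw [eval_eq_sum_range, Finset.sum_range_succ, hS.coeff_natDegree, one_mul] at hroot
  have h2 : ‖∑ i ∈ Finset.range S.natDegree, S.coeff i * a ^ i‖ < ‖a ^ S.natDegree‖ := by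
    rcases Nat.eq_zero_or_pos S.natDegree with h0 | h0
    · rw [h0]
      simp
    · refine lt_of_le_of_lt (IsUltrametricDist.norm_sum_le_of_forall_le_of_nonneg
        (C := ‖a‖ ^ (S.natDegree - 1)) (by positivity) (fun i hi => ?_)) ?_
      · rw [norm_mul, norm_pow]
        calc ‖S.coeff i‖ * ‖a‖ ^ i ≤ 1 * ‖a‖ ^ (S.natDegree - 1) := by
              refine mul_le_mul (h1 i) (pow_le_pow_right₀ hlt.le ?_) (by positivity) zero_le_one
              have := Finset.mem_range.1 hi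
              omega
          _ = _ := one_mul _
      · rw [norm_pow]
        exact pow_lt_pow_right₀ hlt (by omega)
  have h3 : a ^ S.natDegree = - ∑ i ∈ Finset.range S.natDegree, S.coeff i * a ^ i := by
    linear_combination hroot
  rw [h3, norm_neg] at h2
  exact lt_irrefl _ h2

lemma evS_mem_A2 (hσ2 : σ⁻¹ ∈ A2 C) {f : RatFunc C} (hf : f ∈ pre2 C) : evS σ hσ f ∈ A2 C := by
  obtain ⟨P, S, hS, hd, h1, rfl⟩ := hf
  rw [evS_div]
  have h0 : σ ≠ 0 := by
    rw [← norm_ne_zero_iff, norm_sigma σ hσ]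
    exact one_ne_zero
  have hS0 := aeval_sigma_ne_zero σ hσ hS.ne_zero
  have hp := pow_ne_zero S.natDegree (inv_ne_zero h0)
  have h2 : aeval σ P / aeval σ S = (σ⁻¹ ^ S.natDegree * aeval σ P) *
      (σ⁻¹ ^ S.natDegree * aeval σ S)⁻¹ := by
    field_simp
  rw [h2]
  refine (A2 C).mul_mem (inv_sigma_pow_mul_aeval_mem σ hσ hσ2 (natDegree_le_natDegree hd))
    (inv_mem_A2 (inv_sigma_pow_mul_aeval_mem σ hσ hσ2 le_rfl) (mul_ne_zero hp hS0) ?_)
  rw [wind_mul hp hS0, wind_pow (inv_ne_zero h0), wind_inv, wind_sigma σ hσ,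
    wind_aeval_sigma σ hσ hS.ne_zero, wind_poly hS.ne_zero,
    Multiset.filter_eq_self.2 (roots_le_of_monic hS h1),
    splits_iff_card_roots.1 (IsAlgClosed.splits S)]
  ring

lemma autR_mem_A2 (hσ2 : σ⁻¹ ∈ A2 C) {x : F0 C} (hx : x ∈ A2 C) : autR σ hσ x ∈ A2 C := by
  have h1 : (A2 C : Set (F0 C)) ⊆ (autR σ hσ) ⁻¹' (A2 C : Set (F0 C)) := by
    refine closure_minimal ?_ (isClosed_A2.preimage (continuous_autR σ hσ))
    rintro _ ⟨f, hf, rfl⟩
    change autR σ hσ (algebraMap (RatFunc C) (F0 C) f) ∈ A2 C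
    rw [autR_algebraMap]
    exact evS_mem_A2 σ hσ hσ2 hf
  exact h1 hx

lemma exists_autR_eq {y : F0 C} : ∃ x, autR σ hσ x = y := by
  obtain ⟨x, -, hx⟩ := surj_of_close ⊤ isClosed_univ (autR σ hσ : F0 C →+ F0 C)
    (norm_autR σ hσ) hσ (norm_autR_sub_le σ hσ) (fun _ _ => trivial) (y := y) trivial
  exact ⟨x, hx⟩

lemma exists_autR_eq_A2 (hσ2 : σ⁻¹ ∈ A2 C) {y : F0 C} (hy : y ∈ A2 C) :
    ∃ x ∈ A2 C, autR σ hσ x = y :=
  surj_of_close (A2 C).toSubring.toAddSubgroup isClosed_A2 (autR σ hσ : F0 C →+ F0 C)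
    (norm_autR σ hσ) hσ (norm_autR_sub_le σ hσ) (fun _ h => autR_mem_A2 σ hσ hσ2 h) hy

end Aut

lemma inv_tt_pow_mul_aeval_mem {P : C[X]} {d : ℕ} (hd : P.natDegree ≤ d) :
    (tt C)⁻¹ ^ d * aeval (tt C) P ∈ A2 C := by
  have h := inv_sigma_pow_mul_aeval_mem (tt C) (by simp) inv_tt_mem_A2 hd
  exact h

/-- `F2` is the fraction field of `A2`. -/
lemma mem_F2_iff_div {x : F0 C} : x ∈ F2 C ↔ ∃ a ∈ A2 C, ∃ b ∈ A2 C, b ≠ 0 ∧ x = a / b := by
  constructor
  · intro hx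
    rcases eq_or_ne x 0 with rfl | h0
    · exact ⟨0, (A2 C).zero_mem, 1, (A2 C).one_mem, one_ne_zero, by simp⟩
    · obtain ⟨g, hg, k, hk, hk1, hx⟩ := (mem_F2_iff h0).1 hx
      set d := max g.num.natDegree g.denom.natDegree with hd
      have hp := pow_ne_zero d (inv_ne_zero (tt_ne0 (C := C)))
      have hQ := aeval_tt_ne_zero g.denom_ne_zero
      refine ⟨(tt C)⁻¹ ^ d * aeval (tt C) g.num * (1 + k), ?_,
        (tt C)⁻¹ ^ d * aeval (tt C) g.denom, inv_tt_pow_mul_aeval_mem (le_max_right _ _),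
        mul_ne_zero hp hQ, ?_⟩
      · exact (A2 C).mul_mem (inv_tt_pow_mul_aeval_mem (le_max_left _ _))
          ((A2 C).add_mem (A2 C).one_mem hk)
      · rw [hx, algebraMap_rat_eq, mul_assoc, mul_div_mul_left _ _ hp, div_mul_eq_mul_div]
  · rintro ⟨a, ha, b, hb, -, rfl⟩
    exact (F2 C).div_mem (mem_F2_of_A2 ha) (mem_F2_of_A2 hb)

/-- **L2a.** Change of coordinate: an isometric automorphism of `F0`, preserving `A2` and `F2`,
with `t ↦ σ`. -/
theorem exists_aut (σ : F0 C) (hσ : ‖σ - tt C‖ < 1) (hσ2 : tt C * σ⁻¹ ∈ A2 C) :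
    ∃ α : F0 C ≃ₐ[C] F0 C, α (tt C) = σ ∧ (∀ x, ‖α x‖ = ‖x‖) ∧
      (∀ x, ‖α x - x‖ ≤ ‖σ - tt C‖ * ‖x‖) ∧
      (∀ x, α x ∈ A2 C ↔ x ∈ A2 C) ∧ (∀ x, α x ∈ F2 C ↔ x ∈ F2 C) ∧
      ∀ (x : A2 C) (hx : α x ∈ A2 C), evInf C ⟨α x, hx⟩ = evInf C x := by
  have hσ3 : σ⁻¹ ∈ A2 C := by
    have := (A2 C).mul_mem inv_tt_mem_A2 hσ2
    rwa [inv_mul_cancel_left₀ tt_ne0] at this
  have hinj : Function.Injective (autR σ hσ) := (autR σ hσ).injective
  let α : F0 C ≃ₐ[C] F0 C := AlgEquiv.ofBijective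
    { autR σ hσ with commutes' := autR_const σ hσ } ⟨hinj, fun y => exists_autR_eq σ hσ⟩
  have hα : ∀ x, α x = autR σ hσ x := fun x => rfl
  have hA : ∀ x, α x ∈ A2 C ↔ x ∈ A2 C := by
    intro x
    refine ⟨fun h => ?_, fun h => autR_mem_A2 σ hσ hσ3 h⟩
    obtain ⟨x', hx', h'⟩ := exists_autR_eq_A2 σ hσ hσ3 h
    have : x' = x := hinj h'
    exact this ▸ hx'
  refine ⟨α, autR_tt σ hσ, norm_autR σ hσ, norm_autR_sub_le σ hσ, hA, fun x => ?_, ?_⟩
  · rw [mem_F2_iff_div, mem_F2_iff_div]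
    constructor
    · rintro ⟨a, ha, b, hb, hb0, h⟩
      obtain ⟨a', ha', rfl⟩ := exists_autR_eq_A2 σ hσ hσ3 ha
      obtain ⟨b', hb', rfl⟩ := exists_autR_eq_A2 σ hσ hσ3 hb
      refine ⟨a', ha', b', hb', ?_, ?_⟩
      · rintro rfl
        exact hb0 (map_zero _)
      · apply hinj
        rw [map_div₀]
        exact h
    · rintro ⟨a, ha, b, hb, hb0, rfl⟩
      exact ⟨α a, (hA a).2 ha, α b, (hA b).2 hb, (map_ne_zero α).2 hb0, map_div₀ α a b⟩
  · rintro ⟨x, hx⟩ hx'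
    obtain ⟨y, hy, hxy⟩ := mem_A2_of_sub hx
    refine evInf_eq_of (y := (tt C * σ⁻¹) * α y) hx' ((A2 C).mul_mem hσ2 ((hA y).2 hy)) ?_
    have h1 : α x = algebraMap C (F0 C) (evInf C ⟨x, hx⟩) + σ⁻¹ * α y := by
      conv_lhs => rw [hxy]
      rw [map_add, map_mul, map_inv₀, AlgEquiv.commutes]
      congr 2
      exact congrArg _ (autR_tt σ hσ)
    rw [h1]
    have := tt_ne0 (C := C)
    field_simp

/-- **L2b.** order at infinity -/
theorem exists_order (Z : F0 C) (hZ : Z ∈ A2 C) (h0 : Z ≠ 0) :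
    ∃ (e : ℕ) (w : A2 C), Z = (tt C)⁻¹ ^ e * w ∧ evInf C w ≠ 0 := by
  obtain ⟨n, hn⟩ : ∃ n : ℕ, wind C Z = -n := by
    obtain ⟨n, hn⟩ := Int.eq_ofNat_of_zero_le (neg_nonneg.2 (wind_nonpos hZ))
    exact ⟨n, by omega⟩
  induction n generalizing Z with
  | zero =>
    refine ⟨0, ⟨Z, hZ⟩, by simp, ?_⟩
    intro h
    rw [evInf_eq_zero_iff] at h
    have h2 := wind_nonpos h
    rw [wind_mul tt_ne0 h0, wind_tt, hn] at h2
    simp at h2
  | succ n ih =>
    by_cases h : evInf C ⟨Z, hZ⟩ = 0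
    · rw [evInf_eq_zero_iff] at h
      obtain ⟨e, w, hw, hw0⟩ := ih (tt C * Z) h (mul_ne_zero tt_ne0 h0) (by
        rw [wind_mul tt_ne0 h0, wind_tt, hn]
        push_cast
        ring)
      refine ⟨e + 1, w, ?_, hw0⟩
      rw [pow_succ', mul_assoc, ← hw, inv_mul_cancel_left₀ tt_ne0]
    · exact ⟨0, ⟨Z, hZ⟩, by simp, h⟩

end

end P025H907
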