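import Vale.Agent.P025.R2.H907.Loc3

/-!
# G-LOCAL: normal form, logarithmic derivative, derivation and restriction
-/

open Polynomial P025H373 Filter Topology

set_option linter.unusedSectionVars false

universe u

namespace P025H907

noncomputable section

variable {C : Type u} [NontriviallyNormedField C] [IsUltrametricDist C] [CompleteSpace C]
  [IsAlgClosed C]

lemma norm_sub_const_le (c : C) (hc : c ≠ 0) (h : 1 ≤ ‖c‖) {x : F0 C} (hx : x ∈ A2 C) :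
    ‖(sub2 c hc h ⟨x, mem_F2_of_A2 hx⟩ : F0 C) - algebraMap C (F0 C) (evInf C ⟨x, hx⟩)‖ ≤
      ‖c‖⁻¹ * ‖x - algebraMap C (F0 C) (evInf C ⟨x, hx⟩)‖ := by
  set a := evInf C ⟨x, hx⟩ with ha
  have hm : x - algebraMap C (F0 C) a ∈ A2 C := (A2 C).sub_mem hx (const_mem_A2 _)
  have h1 : evInf C ⟨x - algebraMap C (F0 C) a, hm⟩ = 0 := by
    have h2 : (⟨x - algebraMap C (F0 C) a, hm⟩ : A2 C) =
      ⟨x, hx⟩ - ⟨algebraMap C (F0 C) a, const_mem_A2 a⟩ := rfl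
    rw [h2, map_sub, evInf_const, ← ha, sub_self]
  have h2 := norm_sub2_le c hc h hm h1
  have h3 : (sub2 c hc h ⟨x - algebraMap C (F0 C) a, mem_F2_of_A2 hm⟩ : F0 C) =
      (sub2 c hc h ⟨x, mem_F2_of_A2 hx⟩ : F0 C) - algebraMap C (F0 C) a := by
    have h4 : (⟨x - algebraMap C (F0 C) a, mem_F2_of_A2 hm⟩ : F2 C) =
      ⟨x, mem_F2_of_A2 hx⟩ - ⟨algebraMap C (F0 C) a, mem_F2_of_A2 (const_mem_A2 a)⟩ := rfl
    rw [h4, map_sub, AddSubgroupClass.coe_sub, sub2_const]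
  rwa [h3] at h2

/-- **L2.** Normal form `1 + b t^{-e}` on all small discs. -/
theorem exists_normal_form [CharZero C] (X : F0 C) (hX : X ∈ F2 C) (e : ℕ) (he : e ≠ 0) (w : A2 C)
    (hw : X - 1 = (tt C)⁻¹ ^ e * w) (hw0 : evInf C w ≠ 0) :
    ∃ r : ℝ, ∀ (c : C) (hc0 : c ≠ 0) (hc : 1 ≤ ‖c‖), r ≤ ‖c‖ →
      ∃ α : F0 C ≃ₐ[C] F0 C, (∀ x, ‖α x‖ = ‖x‖) ∧ ‖α (tt C) - tt C‖ < 1 ∧
        (∀ x, α x ∈ A2 C ↔ x ∈ A2 C) ∧ (∀ x, α x ∈ F2 C ↔ x ∈ F2 C) ∧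
        (∀ (x : A2 C) (hx : α x ∈ A2 C), evInf C ⟨α x, hx⟩ = evInf C x) ∧
        α (sub2 c hc0 hc ⟨X, hX⟩ : F0 C) =
          1 + algebraMap C (F0 C) (evInf C w * c⁻¹ ^ e) * (tt C)⁻¹ ^ e := by
  set w0 := evInf C w with hw0d
  have heC : (e : C) ≠ 0 := Nat.cast_ne_zero.2 he
  have hen : 0 < ‖(e : C)‖ := norm_pos_iff.2 heC
  have he1 : ‖(e : C)‖ ≤ 1 := IsUltrametricDist.norm_natCast_le_one C e
  have hwn : 0 < ‖w0‖ := norm_pos_iff.2 hw0
  have hw0F : algebraMap C (F0 C) w0 ≠ 0 := (_root_.map_ne_zero (algebraMap C (F0 C))).2 hw0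
  refine ⟨‖(w : F0 C) - algebraMap C (F0 C) w0‖ / (‖w0‖ * ‖(e : C)‖ ^ 2) + 1, ?_⟩
  intro c hc0 hc hr
  have hcn : 0 < ‖c‖ := norm_pos_iff.2 hc0
  have hcF : algebraMap C (F0 C) c ≠ 0 := (_root_.map_ne_zero (algebraMap C (F0 C))).2 hc0
  set W : F0 C := (sub2 c hc0 hc ⟨(w : F0 C), mem_F2_of_A2 w.2⟩ : F0 C) with hW
  have hWA : W ∈ A2 C := (sub2_mem_A2 c hc0 hc ⟨(w : F0 C), mem_F2_of_A2 w.2⟩ w.2).1
  set k : F0 C := (W - algebraMap C (F0 C) w0) * algebraMap C (F0 C) w0⁻¹ with hk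
  have hkA : k ∈ A2 C := (A2 C).mul_mem ((A2 C).sub_mem hWA (const_mem_A2 _)) (const_mem_A2 _)
  have hkn : ‖k‖ < ‖(e : C)‖ ^ 2 := by
    have h1 := norm_sub_const_le c hc0 hc w.2
    have h2 : ‖k‖ ≤ ‖c‖⁻¹ * ‖(w : F0 C) - algebraMap C (F0 C) w0‖ * ‖w0‖⁻¹ := by
      rw [hk, norm_mul, norm_algebraMap_C, norm_inv]
      exact mul_le_mul_of_nonneg_right h1 (inv_nonneg.2 hwn.le)
    refine h2.trans_lt ?_
    have h3 : ‖(w : F0 C) - algebraMap C (F0 C) w0‖ / (‖w0‖ * ‖(e : C)‖ ^ 2) < ‖c‖ := by linarith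
    rw [div_lt_iff₀ (by positivity)] at h3
    rw [inv_mul_eq_div, ← div_eq_mul_inv, div_div, div_lt_iff₀ (by positivity)]
    calc _ < ‖c‖ * (‖w0‖ * ‖(e : C)‖ ^ 2) := h3
      _ = _ := by ring
  obtain ⟨v, hv, hve, hv1⟩ := exists_pow_eq (C := C) (A := F0 C) (A2 C).toSubring isClosed_A2
    (fun a => const_mem_A2 a) heC (x := 1 + k) ((A2 C).add_mem (A2 C).one_mem hkA)
    (by rwa [add_sub_cancel_left])
  rw [add_sub_cancel_left] at hv1
  have hv2 : ‖v - 1‖ < 1 := by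
    refine hv1.trans_lt ?_
    rw [div_lt_one hen]
    calc ‖k‖ < ‖(e : C)‖ ^ 2 := hkn
      _ ≤ ‖(e : C)‖ := by nlinarith
  have hvU : U2 v := by
    have := U2.one_add (h := v - 1) ((A2 C).sub_mem hv (A2 C).one_mem) hv2
    rwa [add_sub_cancel] at this
  have hvn : ‖v‖ = 1 := by
    have := norm_one_add_le (k := v - 1) hv2
    rwa [add_sub_cancel] at this
  have ht := tt_ne0 (C := C)
  have hv0 := hvU.2.2
  have hσ : ‖tt C * v⁻¹ - tt C‖ < 1 := by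
    have h1 : tt C * v⁻¹ - tt C = - (tt C * v⁻¹ * (v - 1)) := by
      field_simp
      ring
    rw [h1, norm_neg, norm_mul, norm_mul, norm_inv, hvn, norm_tt]
    simpa using hv2
  have hσ2 : tt C * (tt C * v⁻¹)⁻¹ ∈ A2 C := by
    have h1 : tt C * (tt C * v⁻¹)⁻¹ = v := by field_simp
    rw [h1]
    exact hv
  obtain ⟨β, hβt, hβn, -, hβA, hβF, hβe⟩ := exists_aut (tt C * v⁻¹) hσ hσ2
  refine ⟨β.symm, fun x => ?_, ?_, fun x => ?_, fun x => ?_, fun x hx => ?_, ?_⟩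
  · rw [← hβn (β.symm x), AlgEquiv.apply_symm_apply]
  · rw [← hβn, map_sub, AlgEquiv.apply_symm_apply, hβt, norm_sub_rev]
    exact hσ
  · rw [← hβA (β.symm x), AlgEquiv.apply_symm_apply]
  · rw [← hβF (β.symm x), AlgEquiv.apply_symm_apply]
  · have h1 : β (β.symm x) ∈ A2 C := by
      rw [AlgEquiv.apply_symm_apply]
      exact x.2
    have h2 := hβe ⟨β.symm x, hx⟩ h1
    rw [← h2]
    exact evInf_congr h1 (β.apply_symm_apply (x : F0 C))
  · rw [AlgEquiv.symm_apply_eq]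
    have h1 : (⟨X, hX⟩ : F2 C) = 1 + (⟨tt C, tt_mem_F2⟩⁻¹ : F2 C) ^ e *
        ⟨(w : F0 C), mem_F2_of_A2 w.2⟩ := by
      ext
      change X = 1 + (tt C)⁻¹ ^ e * w
      rw [← hw]
      ring
    have h2 : (sub2 c hc0 hc ⟨X, hX⟩ : F0 C) =
        1 + (algebraMap C (F0 C) c * tt C)⁻¹ ^ e * W := by
      rw [h1, map_add, map_mul, map_pow, map_inv₀, map_one]
      change 1 + ((sub2 c hc0 hc ⟨tt C, tt_mem_F2⟩ : F0 C))⁻¹ ^ e * W = _
      rw [sub2_tt]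
    have h3 : W = algebraMap C (F0 C) w0 * v ^ e := by
      rw [hve, hk, map_inv₀]
      field_simp
      ring
    rw [h2, h3, map_add, map_mul, map_one, map_pow, map_inv₀, hβt, AlgEquiv.commutes, mul_inv,
      mul_inv, inv_inv, map_mul, map_pow, map_inv₀]
    ring

/-! ### the derivation on `A2` -/

lemma der_inv_tt : der C (tt C)⁻¹ = - ((tt C)⁻¹ ^ 2) := by
  rw [Derivation.leibniz_inv, der_tt]
  simp

lemma der_const (a : C) : der C (algebraMap C (F0 C) a) = 0 := (der C).map_algebraMap a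

lemma der_form1 {x : F0 C} (hx : x ∈ A2 C) : ∃ y ∈ A2 C,
    tt C * der C x = - ((tt C)⁻¹ * y) + der C y := by
  obtain ⟨y, hy, hxy⟩ := mem_A2_of_sub hx
  refine ⟨y, hy, ?_⟩
  conv_lhs => rw [hxy, map_add, der_const, zero_add, Derivation.leibniz, der_inv_tt]
  have := tt_ne0 (C := C)
  simp only [smul_eq_mul]
  field_simp
  ring

lemma der_form {x : F0 C} (hx : x ∈ A2 C) : ∃ z ∈ A2 C, tt C * der C x = (tt C)⁻¹ * z := by
  obtain ⟨y, hy, h1⟩ := der_form1 hx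
  obtain ⟨y', hy', h2⟩ := der_form1 hy
  have ht := tt_ne0 (C := C)
  refine ⟨-y - (tt C)⁻¹ * y' + der C y', (A2 C).add_mem ((A2 C).sub_mem ((A2 C).neg_mem hy)
    ((A2 C).mul_mem inv_tt_mem_A2 hy')) (der_mem_A2 hy'), ?_⟩
  have h3 : der C y = (tt C)⁻¹ * (- ((tt C)⁻¹ * y') + der C y') := by
    rw [← h2, inv_mul_cancel_left₀ ht]
  rw [h1, h3]
  ring

/-- **L3.** the order of the logarithmic derivative -/
theorem logDer_order [CharZero C] (X : F0 C) (e : ℕ) (he : e ≠ 0) (w : A2 C)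
    (hw : X - 1 = (tt C)⁻¹ ^ e * w) (hw0 : evInf C w ≠ 0) (hX : ‖X - 1‖ < 1) :
    ∃ w' : A2 C, der C X / X = (tt C)⁻¹ ^ (e + 1) * w' ∧ evInf C w' = - e * evInf C w := by
  have ht := tt_ne0 (C := C)
  obtain ⟨k, rfl⟩ := Nat.exists_eq_succ_of_ne_zero he
  have hXm : X - 1 ∈ A2 C := by
    rw [hw]
    exact (A2 C).mul_mem ((A2 C).pow_mem inv_tt_mem_A2 _) w.2
  have hXU : U2 X := by
    have := U2.one_add hXm hX
    rwa [add_sub_cancel] at this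
  have hX1 : evInf C ⟨X, hXU.1⟩ = 1 := by
    refine evInf_eq_of hXU.1 (y := (tt C)⁻¹ ^ k * (w : F0 C))
      ((A2 C).mul_mem ((A2 C).pow_mem inv_tt_mem_A2 _) w.2) ?_
    rw [map_one, ← mul_assoc, ← pow_succ', ← Nat.succ_eq_add_one, ← hw]
    ring
  have hX2 : evInf C ⟨X⁻¹, hXU.2.1⟩ = 1 := by
    have h1 : evInf C (⟨X, hXU.1⟩ * ⟨X⁻¹, hXU.2.1⟩) = 1 := by
      have : (⟨X, hXU.1⟩ * ⟨X⁻¹, hXU.2.1⟩ : A2 C) = 1 := by
        ext
        exact mul_inv_cancel₀ hXU.2.2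
      rw [this, map_one]
    rwa [map_mul, hX1, one_mul] at h1
  obtain ⟨z, hz, hwz⟩ := der_form w.2
  have hzA : tt C * der C (w : F0 C) ∈ A2 C := by
    rw [hwz]
    exact (A2 C).mul_mem inv_tt_mem_A2 hz
  refine ⟨(-((k.succ : ℕ) : A2 C) * w + ⟨tt C * der C (w : F0 C), hzA⟩) * ⟨X⁻¹, hXU.2.1⟩, ?_, ?_⟩
  · have hti : tt C * (tt C)⁻¹ = 1 := mul_inv_cancel₀ ht
    have h1 : X = 1 + (tt C)⁻¹ ^ (k + 1) * (w : F0 C) := by
      rw [← Nat.succ_eq_add_one, ← hw]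
      ring
    have h2 : der C X = (tt C)⁻¹ ^ (k + 2) * (-((k + 1 : ℕ) : F0 C) * w + tt C * der C (w : F0 C)) := by
      conv_lhs => rw [h1, map_add, Derivation.map_one_eq_zero, zero_add, Derivation.leibniz,
        Derivation.leibniz_pow, der_inv_tt]
      simp only [smul_eq_mul, nsmul_eq_mul, Nat.add_sub_cancel]
      linear_combination (-(tt C)⁻¹ ^ (k + 1) * der C (w : F0 C)) * hti
    rw [h2, div_eq_mul_inv]
    push_cast
    rw [Nat.succ_eq_add_one]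
    ring
  · rw [map_mul, map_add, map_mul, hX2, mul_one, map_neg, map_natCast]
    have h1 : evInf C ⟨tt C * der C (w : F0 C), hzA⟩ = 0 := by
      refine evInf_eq_of hzA hz ?_
      rw [map_zero, zero_add]
      exact hwz
    rw [h1, add_zero]

section DerSub

variable (c : C) (hc0 : c ≠ 0) (hc : 1 ≤ ‖c‖)

/-- the two derivations along `sub2` -/
def E1 (x : F2 C) : F0 C := der C (sub2 c hc0 hc x : F0 C)

/-- the two derivations along `sub2` -/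
def E2 (x : F2 C) : F0 C :=
  algebraMap C (F0 C) c * (sub2 c hc0 hc ⟨der C x, der_mem_F2 x.2⟩ : F0 C)

lemma E1_add (x y : F2 C) : E1 c hc0 hc (x + y) = E1 c hc0 hc x + E1 c hc0 hc y := by
  simp only [E1, map_add]
  rw [IntermediateField.coe_add, map_add]

lemma E2_add (x y : F2 C) : E2 c hc0 hc (x + y) = E2 c hc0 hc x + E2 c hc0 hc y := by
  have h1 : (⟨der C ((x + y : F2 C) : F0 C), der_mem_F2 (x + y).2⟩ : F2 C) =
      ⟨der C x, der_mem_F2 x.2⟩ + ⟨der C y, der_mem_F2 y.2⟩ := by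
    ext
    change der C ((x : F0 C) + y) = der C x + der C y
    rw [map_add]
  rw [E2, h1, map_add, IntermediateField.coe_add, mul_add]
  rfl

lemma E1_mul (x y : F2 C) : E1 c hc0 hc (x * y) =
    (sub2 c hc0 hc x : F0 C) * E1 c hc0 hc y + (sub2 c hc0 hc y : F0 C) * E1 c hc0 hc x := by
  simp only [E1, map_mul]
  rw [IntermediateField.coe_mul, Derivation.leibniz]
  rfl

lemma E2_mul (x y : F2 C) : E2 c hc0 hc (x * y) =
    (sub2 c hc0 hc x : F0 C) * E2 c hc0 hc y + (sub2 c hc0 hc y : F0 C) * E2 c hc0 hc x := by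
  have h1 : (⟨der C ((x * y : F2 C) : F0 C), der_mem_F2 (x * y).2⟩ : F2 C) =
      x * ⟨der C y, der_mem_F2 y.2⟩ + y * ⟨der C x, der_mem_F2 x.2⟩ := by
    ext
    change der C ((x : F0 C) * y) = x * der C y + y * der C x
    rw [Derivation.leibniz]
    rfl
  rw [E2, h1, map_add, map_mul, map_mul, IntermediateField.coe_add, IntermediateField.coe_mul,
    IntermediateField.coe_mul, E2, E2]
  ring

lemma E_div {x y : F2 C} (hy : y ≠ 0) (h1 : E1 c hc0 hc (x * y) = E2 c hc0 hc (x * y))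
    (h2 : E1 c hc0 hc y = E2 c hc0 hc y) : E1 c hc0 hc x = E2 c hc0 hc x := by
  rw [E1_mul, E2_mul, h2] at h1
  have h3 : (sub2 c hc0 hc y : F0 C) ≠ 0 := by
    intro h3
    exact (map_ne_zero (sub2 c hc0 hc)).2 hy (Subtype.ext h3)
  exact mul_left_cancel₀ h3 (add_left_cancel h1)

lemma E_const (a : C) : E1 c hc0 hc (algebraMap C (F2 C) a) = E2 c hc0 hc (algebraMap C (F2 C) a) := by
  rw [E1, E2, AlgHom.commutes]
  have h1 : ((algebraMap C (F2 C) a : F2 C) : F0 C) = algebraMap C (F0 C) a := rfl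
  have h2 : (⟨der C ((algebraMap C (F2 C) a : F2 C) : F0 C), der_mem_F2 (algebraMap C (F2 C) a).2⟩ :
      F2 C) = 0 := by
    ext
    change der C (algebraMap C (F0 C) a) = 0
    exact der_const a
  rw [h2, h1, der_const, map_zero]
  simp

lemma E_tt : E1 c hc0 hc ⟨tt C, tt_mem_F2⟩ = E2 c hc0 hc ⟨tt C, tt_mem_F2⟩ := by
  have h2 : (⟨der C ((⟨tt C, tt_mem_F2⟩ : F2 C) : F0 C), der_mem_F2 tt_mem_F2⟩ : F2 C) = 1 := by
    ext
    exact der_tt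
  rw [E1, E2, h2, map_one, sub2_tt, Derivation.leibniz, der_tt, der_const]
  simp

lemma E_poly (P : C[X]) : E1 c hc0 hc (aeval (⟨tt C, tt_mem_F2⟩ : F2 C) P) =
    E2 c hc0 hc (aeval (⟨tt C, tt_mem_F2⟩ : F2 C) P) := by
  induction P using Polynomial.induction_on with
  | C a => rw [aeval_C]; exact E_const c hc0 hc a
  | add p q hp hq => rw [map_add, E1_add, E2_add, hp, hq]
  | monomial n a ih =>
    rw [pow_succ, ← mul_assoc, map_mul, aeval_X, E1_mul, E2_mul, ih, E_tt]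

lemma coe_aeval_F2 (P : C[X]) : ((aeval (⟨tt C, tt_mem_F2⟩ : F2 C) P : F2 C) : F0 C) =
    aeval (tt C) P := by
  have h1 : (aeval (tt C) P : F0 C) = aeval ((IntermediateField.val (F2 C)).restrictScalars C
    (⟨tt C, tt_mem_F2⟩ : F2 C)) P := rfl
  rw [h1, aeval_algHom_apply]
  rfl

lemma E_rat (g : RatFunc C) : E1 c hc0 hc (algebraMap (RatFunc C) (F2 C) g) =
    E2 c hc0 hc (algebraMap (RatFunc C) (F2 C) g) := by
  have h1 : (aeval (⟨tt C, tt_mem_F2⟩ : F2 C) g.denom : F2 C) ≠ 0 := by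
    intro h
    have h2 := congrArg (fun z : F2 C => (z : F0 C)) h
    rw [coe_aeval_F2] at h2
    exact aeval_tt_ne_zero g.denom_ne_zero h2
  refine E_div c hc0 hc h1 ?_ (E_poly c hc0 hc _)
  have h3 : algebraMap (RatFunc C) (F2 C) g * aeval (⟨tt C, tt_mem_F2⟩ : F2 C) g.denom =
      aeval (⟨tt C, tt_mem_F2⟩ : F2 C) g.num := by
    ext
    rw [IntermediateField.coe_mul, coe_aeval_F2, coe_aeval_F2, coe_algebraMap_F2,
      algebraMap_rat_eq, div_mul_cancel₀ _ (aeval_tt_ne_zero g.denom_ne_zero)]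
  rw [h3]
  exact E_poly c hc0 hc _

lemma E_A2 {x : F0 C} (hx : x ∈ A2 C) :
    E1 c hc0 hc ⟨x, mem_F2_of_A2 hx⟩ = E2 c hc0 hc ⟨x, mem_F2_of_A2 hx⟩ := by
  have hcn : 0 < ‖c‖ := norm_pos_iff.2 hc0
  rw [← sub_eq_zero, ← norm_le_zero_iff]
  refine le_of_forall_pos_le_add (fun ε hε => ?_)
  rw [zero_add]
  obtain ⟨_, ⟨f, hf, rfl⟩, hfx⟩ := Metric.mem_closure_iff.1 hx (ε / ‖c‖) (by positivity)
  have hfA : algebraMap (RatFunc C) (F0 C) f ∈ A2 C :=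
    Subalgebra.le_topologicalClosure _ ⟨f, hf, rfl⟩
  have hy : x - algebraMap (RatFunc C) (F0 C) f ∈ A2 C := (A2 C).sub_mem hx hfA
  set y : F2 C := ⟨x - algebraMap (RatFunc C) (F0 C) f, mem_F2_of_A2 hy⟩ with hyd
  have h1 : (⟨x, mem_F2_of_A2 hx⟩ : F2 C) = y + algebraMap (RatFunc C) (F2 C) f := by
    ext
    change x = (x - algebraMap (RatFunc C) (F0 C) f) + algebraMap (RatFunc C) (F0 C) f
    ring
  have hyn : ‖(y : F0 C)‖ ≤ ε / ‖c‖ := by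
    have h2 : dist x (algebraMap (RatFunc C) (F0 C) f) < ε / ‖c‖ := hfx
    rw [dist_eq_norm] at h2
    exact h2.le
  rw [h1, E1_add, E2_add, E_rat, add_sub_add_right_eq_sub, sub_eq_add_neg]
  have hε2 : ε / ‖c‖ ≤ ε := div_le_self hε.le hc
  refine (IsUltrametricDist.norm_add_le_max _ _).trans (max_le ?_ ?_)
  · exact (norm_der_le _).trans (((sub2_mem_A2 c hc0 hc y hy).2.trans hyn).trans hε2)
  · rw [norm_neg, E2, norm_mul, norm_algebraMap_C]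
    have h3 : ‖(sub2 c hc0 hc ⟨der C y, der_mem_F2 y.2⟩ : F0 C)‖ ≤ ε / ‖c‖ :=
      (sub2_mem_A2 c hc0 hc ⟨der C y, der_mem_F2 y.2⟩ (der_mem_A2 hy)).2.trans
        ((norm_der_le _).trans hyn)
    calc ‖c‖ * _ ≤ ‖c‖ * (ε / ‖c‖) := mul_le_mul_of_nonneg_left h3 hcn.le
      _ = ε := by field_simp

theorem der_sub2 (x : F2 C) (hx' : der C x ∈ F2 C) :
    der C (sub2 c hc0 hc x : F0 C) =
      algebraMap C (F0 C) c * (sub2 c hc0 hc ⟨der C x, hx'⟩ : F0 C) := by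
  obtain ⟨x, hx⟩ := x
  obtain ⟨a, ha, b, hb, hb0, rfl⟩ := mem_F2_iff_div.1 hx
  have hb1 : (⟨b, mem_F2_of_A2 hb⟩ : F2 C) ≠ 0 := by
    intro h
    exact hb0 (congrArg Subtype.val h)
  have h1 : (⟨a / b, hx⟩ : F2 C) * ⟨b, mem_F2_of_A2 hb⟩ = ⟨a, mem_F2_of_A2 ha⟩ := by
    ext
    change a / b * b = a
    field_simp
  exact E_div c hc0 hc (x := ⟨a / b, hx⟩) hb1 (by rw [h1]; exact E_A2 c hc0 hc ha)
    (E_A2 c hc0 hc hb)

end DerSub

end

end P025H907
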